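import Mathlib

/-! Finite entropy estimates used for the multiple mixing result. -/

namespace Vale.Agent.Lib.P102

open Finset Real

/-- elementary bound: `log t ≤ 2 * sqrt t` for `t > 0`. -/
lemma log_le_two_sqrt {t : ℝ} (ht : 0 < t) : Real.log t ≤ 2 * Real.sqrt t := by
  have hs : 0 < Real.sqrt t := Real.sqrt_pos.mpr ht
  have h1 : Real.log (Real.sqrt t) ≤ Real.sqrt t - 1 := Real.log_le_sub_one_of_pos hs
  have h2 : Real.log t = 2 * Real.log (Real.sqrt t) := by
    rw [Real.log_sqrt ht.le]; ring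
  rw [h2]; linarith

/-- one fibre bound for the chain inequality. -/
lemma single_chain {κ : Type*} [Fintype κ] [DecidableEq κ] (m : κ → ℝ) (hm : ∀ j, 0 ≤ m j)
    (S : Finset κ) (C : ℕ) (hC : 1 ≤ C) (hS : S.card ≤ C) :
    ∑ j, Real.negMulLog (m j) ≤ Real.negMulLog (∑ j, m j) + (∑ j, m j) * Real.log C
      + (2 * (Fintype.card κ : ℝ) + 1) * Real.sqrt ((∑ j, m j) * ∑ j ∈ Sᶜ, m j) := by
  classical
  set a := ∑ j, m j with ha
  set e := ∑ j ∈ Sᶜ, m j with he
  set s := ∑ j ∈ S, m j with hs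
  have ha0 : 0 ≤ a := Finset.sum_nonneg (fun j _ => hm j)
  have he0 : 0 ≤ e := Finset.sum_nonneg (fun j _ => hm j)
  have hs0 : 0 ≤ s := Finset.sum_nonneg (fun j _ => hm j)
  have hse : s + e = a := by
    rw [hs, he, ha]; exact Finset.sum_add_sum_compl S m
  rcases ha0.eq_or_lt with ha1 | hapos
  · -- all masses vanish
    have hall : ∀ j, m j = 0 := by
      intro j
      have := (Finset.sum_eq_zero_iff_of_nonneg (fun j _ => hm j)).mp ha1.symm j (Finset.mem_univ j)
      exact this
    have : ∑ j, Real.negMulLog (m j) = 0 := by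
      apply Finset.sum_eq_zero; intro j _; rw [hall j]; simp
    rw [this, ← ha1]; simp
  · have hC' : (1:ℝ) ≤ C := by exact_mod_cast hC
    have hCpos : (0:ℝ) < C := by linarith
    have hlogC : 0 ≤ Real.log C := Real.log_nonneg hC'
    set g : κ → ℝ := fun j => Real.negMulLog (m j) + m j * Real.log a with hg
    have hsumg : ∑ j, g j = ∑ j, Real.negMulLog (m j) - Real.negMulLog a := by
      rw [hg, Finset.sum_add_distrib, ← Finset.sum_mul, ← ha, Real.negMulLog]; ring
    -- bound on S
    have hgS : ∀ j, g j ≤ m j * (Real.log C - 1) + a / C := by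
      intro j
      rcases (hm j).eq_or_lt with h0 | hpos
      · simp only [hg, ← h0]; simp; positivity
      · have ht : 0 < a / m j := div_pos hapos hpos
        have hq : 0 < a / m j / C := div_pos ht hCpos
        have h1 := Real.log_le_sub_one_of_pos hq
        rw [Real.log_div ht.ne' hCpos.ne', Real.log_div hapos.ne' hpos.ne'] at h1
        have h2 : g j = m j * (Real.log a - Real.log (m j)) := by
          simp only [hg, Real.negMulLog]; ring
        rw [h2]
        have h3 : m j * (a / m j / C) = a / C := by field_simp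
        have h4 : m j * (Real.log a - Real.log (m j) - Real.log C) ≤ m j * (a / m j / C - 1) :=
          mul_le_mul_of_nonneg_left h1 hpos.le
        rw [mul_sub (m j) (a / m j / C) 1, h3] at h4
        nlinarith
    have hsumS : ∑ j ∈ S, g j ≤ s * (Real.log C - 1) + a := by
      calc ∑ j ∈ S, g j ≤ ∑ j ∈ S, (m j * (Real.log C - 1) + a / C) :=
            Finset.sum_le_sum (fun j _ => hgS j)
        _ = s * (Real.log C - 1) + (S.card : ℝ) * (a / C) := by
            rw [Finset.sum_add_distrib, ← Finset.sum_mul, Finset.sum_const, nsmul_eq_mul]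
        _ ≤ s * (Real.log C - 1) + a := by
            have : (S.card : ℝ) * (a / C) ≤ a := by
              have h5 : (S.card : ℝ) ≤ C := by exact_mod_cast hS
              calc (S.card : ℝ) * (a / C) ≤ C * (a / C) :=
                    mul_le_mul_of_nonneg_right h5 (div_nonneg ha0 hCpos.le)
                _ = a := by field_simp
            linarith
    -- bound off S
    set r := Real.sqrt (a * e) with hr
    have hr0 : 0 ≤ r := Real.sqrt_nonneg _
    have hgSc : ∀ j ∈ Sᶜ, g j ≤ 2 * r := by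
      intro j hj
      rcases (hm j).eq_or_lt with h0 | hpos
      · simp only [hg, ← h0]; simp; positivity
      · have ht : 0 < a / m j := div_pos hapos hpos
        have h1 := log_le_two_sqrt ht
        rw [Real.log_div hapos.ne' hpos.ne'] at h1
        have h2 : g j = m j * (Real.log a - Real.log (m j)) := by
          simp only [hg, Real.negMulLog]; ring
        rw [h2]
        have h3 : m j ≤ e := Finset.single_le_sum (fun i _ => hm i) hj
        have h4 : m j * Real.sqrt (a / m j) = Real.sqrt (a * m j) := by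
          rw [show a * m j = (m j) ^ 2 * (a / m j) by field_simp]
          rw [Real.sqrt_mul (by positivity), Real.sqrt_sq hpos.le]
        have h5 : Real.sqrt (a * m j) ≤ r := by
          apply Real.sqrt_le_sqrt
          exact mul_le_mul_of_nonneg_left h3 ha0
        calc m j * (Real.log a - Real.log (m j)) ≤ m j * (2 * Real.sqrt (a / m j)) :=
              mul_le_mul_of_nonneg_left h1 hpos.le
          _ = 2 * (m j * Real.sqrt (a / m j)) := by ring
          _ ≤ 2 * r := by rw [h4]; linarith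
    have hsumSc : ∑ j ∈ Sᶜ, g j ≤ 2 * (Fintype.card κ : ℝ) * r := by
      calc ∑ j ∈ Sᶜ, g j ≤ ∑ _j ∈ Sᶜ, 2 * r := Finset.sum_le_sum hgSc
        _ = (Sᶜ.card : ℝ) * (2 * r) := by rw [Finset.sum_const, nsmul_eq_mul]
        _ ≤ (Fintype.card κ : ℝ) * (2 * r) := by
            apply mul_le_mul_of_nonneg_right _ (by positivity)
            exact_mod_cast Finset.card_le_univ _
        _ = _ := by ring
    have hge : e ≤ r := by
      rw [hr]
      apply Real.le_sqrt_of_sq_le
      have : e ≤ a := by linarith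
      nlinarith
    have hfinal : ∑ j, g j ≤ a * Real.log C + (2 * (Fintype.card κ : ℝ) + 1) * r := by
      have hsplit : ∑ j, g j = ∑ j ∈ S, g j + ∑ j ∈ Sᶜ, g j :=
        (Finset.sum_add_sum_compl S g).symm
      rw [hsplit]
      have h6 : s * Real.log C ≤ a * Real.log C :=
        mul_le_mul_of_nonneg_right (by linarith) hlogC
      nlinarith
    rw [hsumg] at hfinal
    linarith

/-- chain inequality for a two-coordinate mass array with prediction sets. -/
lemma chain_ineq {ι κ : Type*} [Fintype ι] [Fintype κ] [DecidableEq κ] (m : ι → κ → ℝ)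
    (hm : ∀ i j, 0 ≤ m i j) (hsum : ∑ i, ∑ j, m i j = 1)
    (S : ι → Finset κ) (C : ℕ) (hC : 1 ≤ C) (hS : ∀ i, (S i).card ≤ C) :
    ∑ i, ∑ j, Real.negMulLog (m i j) ≤ ∑ i, Real.negMulLog (∑ j, m i j) + Real.log C
      + (2 * (Fintype.card κ : ℝ) + 1) * Real.sqrt (∑ i, ∑ j ∈ (S i)ᶜ, m i j) := by
  classical
  have h1 : ∀ i, ∑ j, Real.negMulLog (m i j) ≤ Real.negMulLog (∑ j, m i j)
      + (∑ j, m i j) * Real.log C
      + (2 * (Fintype.card κ : ℝ) + 1) * Real.sqrt ((∑ j, m i j) * ∑ j ∈ (S i)ᶜ, m i j) :=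
    fun i => single_chain (m i) (hm i) (S i) C hC (hS i)
  have h2 : ∑ i, Real.sqrt ((∑ j, m i j) * ∑ j ∈ (S i)ᶜ, m i j)
      ≤ Real.sqrt (∑ i, ∑ j ∈ (S i)ᶜ, m i j) := by
    have hf : ∀ i, 0 ≤ ∑ j, m i j := fun i => Finset.sum_nonneg (fun j _ => hm i j)
    have hg : ∀ i, 0 ≤ ∑ j ∈ (S i)ᶜ, m i j := fun i => Finset.sum_nonneg (fun j _ => hm i j)
    have := Real.sum_sqrt_mul_sqrt_le (Finset.univ) hf hg
    calc ∑ i, Real.sqrt ((∑ j, m i j) * ∑ j ∈ (S i)ᶜ, m i j)
        = ∑ i, Real.sqrt (∑ j, m i j) * Real.sqrt (∑ j ∈ (S i)ᶜ, m i j) := by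
          apply Finset.sum_congr rfl; intro i _; rw [Real.sqrt_mul (hf i)]
      _ ≤ Real.sqrt (∑ i, ∑ j, m i j) * Real.sqrt (∑ i, ∑ j ∈ (S i)ᶜ, m i j) := this
      _ = Real.sqrt (∑ i, ∑ j ∈ (S i)ᶜ, m i j) := by rw [hsum]; simp
  calc ∑ i, ∑ j, Real.negMulLog (m i j)
      ≤ ∑ i, (Real.negMulLog (∑ j, m i j) + (∑ j, m i j) * Real.log C
        + (2 * (Fintype.card κ : ℝ) + 1) * Real.sqrt ((∑ j, m i j) * ∑ j ∈ (S i)ᶜ, m i j)) :=
        Finset.sum_le_sum (fun i _ => h1 i)
    _ = ∑ i, Real.negMulLog (∑ j, m i j) + (∑ i, ∑ j, m i j) * Real.log C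
        + (2 * (Fintype.card κ : ℝ) + 1)
          * ∑ i, Real.sqrt ((∑ j, m i j) * ∑ j ∈ (S i)ᶜ, m i j) := by
        rw [Finset.sum_add_distrib, Finset.sum_add_distrib, Finset.sum_mul, Finset.mul_sum]
    _ ≤ _ := by
        rw [hsum, one_mul]
        have : 0 ≤ (2 * (Fintype.card κ : ℝ) + 1) := by positivity
        nlinarith [mul_le_mul_of_nonneg_left h2 this]

/-- lower bound of the entropy by the negative log of the maximal mass. -/
lemma entropy_ge {ι : Type*} [Fintype ι] (m : ι → ℝ) (hm : ∀ i, 0 ≤ m i)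
    (hsum : ∑ i, m i = 1) {q : ℝ} (hq : 0 < q) (hle : ∀ i, m i ≤ q) :
    - Real.log q ≤ ∑ i, Real.negMulLog (m i) := by
  have h1 : ∀ i, m i * (- Real.log q) ≤ Real.negMulLog (m i) := by
    intro i
    rcases (hm i).eq_or_lt with h0 | hpos
    · rw [← h0]; simp
    · rw [Real.negMulLog]
      have := Real.log_le_log hpos (hle i)
      nlinarith
  calc - Real.log q = (∑ i, m i) * (- Real.log q) := by rw [hsum]; ring
    _ = ∑ i, m i * (- Real.log q) := by rw [Finset.sum_mul]
    _ ≤ _ := Finset.sum_le_sum (fun i _ => h1 i)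

end Vale.Agent.Lib.P102
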