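import Mathlib
import Vale.Agent.Lib.P102.Entropy

/-! Block events for a finite valued observable of a measure preserving map. -/

namespace Vale.Agent.Lib.P102

open MeasureTheory Filter Topology

variable {Ω : Type*} [MeasurableSpace Ω] {α : Type*}

/-- the block of the first `K` letters. -/
def win (ξ : Ω → α) (T : Ω → Ω) (K : ℕ) (ω : Ω) : Fin K → α := fun i => ξ (T^[i] ω)

/-- two times at distance at least `G`. -/
def Far (G s t : ℕ) : Prop := s + G ≤ t ∨ t + G ≤ s

lemma Far.mono {G G' s t : ℕ} (h : G ≤ G') (hf : Far G' s t) : Far G s t := by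
  unfold Far at *; omega

lemma Far.symm {G s t : ℕ} (hf : Far G s t) : Far G t s := by
  unfold Far at *; omega

section measurable

variable [MeasurableSpace α] {ξ : Ω → α} {T : Ω → Ω}

lemma measurable_win (hξ : Measurable ξ) (hT : Measurable T) (K : ℕ) :
    Measurable (win ξ T K) := by
  apply measurable_pi_lambda
  intro i
  exact hξ.comp (hT.iterate _)

end measurable

section prob

variable {μ : Measure Ω} {T : Ω → Ω}

lemma real_preimage_iterate (hT : MeasurePreserving T μ μ) (s : ℕ) {A : Set Ω}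
    (hA : MeasurableSet A) : μ.real (T^[s] ⁻¹' A) = μ.real A := by
  simp only [Measure.real]
  rw [(hT.iterate s).measure_preimage hA.nullMeasurableSet]

variable [IsProbabilityMeasure μ]

/-- Mixing in real form. -/
lemma mix_real
    (hmix : ∀ A B, MeasurableSet A → MeasurableSet B →
      Tendsto (fun n : ℕ => μ (A ∩ T^[n] ⁻¹' B)) atTop (𝓝 (μ A * μ B)))
    {A B : Set Ω} (hA : MeasurableSet A) (hB : MeasurableSet B) :
    Tendsto (fun n : ℕ => μ.real (A ∩ T^[n] ⁻¹' B)) atTop (𝓝 (μ.real A * μ.real B)) := by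
  have h := (ENNReal.tendsto_toReal (by finiteness)).comp (hmix A B hA hB)
  simpa [Measure.real, ENNReal.toReal_mul, Function.comp_def] using h

/-- Mixing for two events at far times. -/
lemma pair_mix (hT : MeasurePreserving T μ μ)
    (hmix : ∀ A B, MeasurableSet A → MeasurableSet B →
      Tendsto (fun n : ℕ => μ (A ∩ T^[n] ⁻¹' B)) atTop (𝓝 (μ A * μ B)))
    {A B : Set Ω} (hA : MeasurableSet A) (hB : MeasurableSet B) {δ : ℝ} (hδ : 0 < δ) :
    ∃ G : ℕ, ∀ s t : ℕ, Far G s t →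
      |μ.real (T^[s] ⁻¹' A ∩ T^[t] ⁻¹' B) - μ.real A * μ.real B| < δ := by
  have h1 := (Metric.tendsto_atTop.mp (mix_real hmix hA hB)) δ hδ
  have h2 := (Metric.tendsto_atTop.mp (mix_real hmix hB hA)) δ hδ
  obtain ⟨G₁, hG₁⟩ := h1
  obtain ⟨G₂, hG₂⟩ := h2
  refine ⟨max G₁ G₂, ?_⟩
  intro s t hf
  have hmeas : ∀ {n : ℕ} {C : Set Ω}, MeasurableSet C → MeasurableSet (T^[n] ⁻¹' C) :=
    fun {n} {C} hC => (hT.measurable.iterate n) hC
  rcases hf with hf | hf
  · obtain ⟨n, rfl⟩ : ∃ n, t = n + s := ⟨t - s, by omega⟩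
    have hn : G₁ ≤ n := by
      have := le_max_left G₁ G₂; omega
    have h3 := hG₁ n hn
    rw [Real.dist_eq] at h3
    have h4 : T^[s] ⁻¹' A ∩ T^[n + s] ⁻¹' B = T^[s] ⁻¹' (A ∩ T^[n] ⁻¹' B) := by
      ext ω; simp [Function.iterate_add_apply]
    rw [h4, real_preimage_iterate hT s (hA.inter (hmeas hB))]
    exact h3
  · obtain ⟨n, rfl⟩ : ∃ n, s = n + t := ⟨s - t, by omega⟩
    have hn : G₂ ≤ n := by
      have := le_max_right G₁ G₂; omega
    have h3 := hG₂ n hn
    rw [Real.dist_eq] at h3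
    have h4 : T^[n + t] ⁻¹' A ∩ T^[t] ⁻¹' B = T^[t] ⁻¹' (B ∩ T^[n] ⁻¹' A) := by
      ext ω; simp [Function.iterate_add_apply, and_comm]
    rw [h4, real_preimage_iterate hT t (hB.inter (hmeas hA)), mul_comm (μ.real A)]
    exact h3

/-- Uniform version of `pair_mix` over a finite family. -/
lemma pair_mix_family (hT : MeasurePreserving T μ μ)
    (hmix : ∀ A B, MeasurableSet A → MeasurableSet B →
      Tendsto (fun n : ℕ => μ (A ∩ T^[n] ⁻¹' B)) atTop (𝓝 (μ A * μ B)))
    {ι : Type*} [Finite ι] (A B : ι → Set Ω) (hA : ∀ i, MeasurableSet (A i))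
    (hB : ∀ i, MeasurableSet (B i)) {δ : ℝ} (hδ : 0 < δ) :
    ∃ G : ℕ, ∀ i, ∀ s t : ℕ, Far G s t →
      |μ.real (T^[s] ⁻¹' A i ∩ T^[t] ⁻¹' B i) - μ.real (A i) * μ.real (B i)| < δ := by
  choose G hG using fun i => pair_mix hT hmix (hA i) (hB i) hδ
  obtain ⟨M, hM⟩ := Finite.exists_le G
  exact ⟨M, fun i s t hf => hG i s t (hf.mono (hM i))⟩

/-- Sum of the masses of a finite partition of an event. -/
lemma sum_fibers {κ : Type*} [Fintype κ] [MeasurableSpace κ] [MeasurableSingletonClass κ]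
    {Y : Ω → κ} (hY : Measurable Y) {E : Set Ω} (hE : MeasurableSet E) :
    ∑ j, μ.real (E ∩ Y ⁻¹' {j}) = μ.real E := by
  have hd : Pairwise (Function.onFun Disjoint (fun j => E ∩ Y ⁻¹' {j})) := by
    intro i j hij
    apply Set.disjoint_left.mpr
    rintro ω ⟨_, h1⟩ ⟨_, h2⟩
    exact hij (h1.symm.trans h2)
  have hm : ∀ j, MeasurableSet (E ∩ Y ⁻¹' {j}) := fun j => hE.inter (hY (measurableSet_singleton j))
  rw [← measureReal_iUnion_fintype hd hm]
  congr 1
  ext ω
  simp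

end prob

end Vale.Agent.Lib.P102
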