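import Mathlib
import Vale.Agent.Lib.P102.Basic

/-! The mass comparison inequality under asymptotic determinism. -/

namespace Vale.Agent.Lib.P102

open MeasureTheory Filter Topology

variable {Ω : Type*} [MeasurableSpace Ω] {α : Type*}

/-- the event that the prediction of the letter at `p₃` fails. -/
def Err (ξ : Ω → α) (T : Ω → Ω) {R W : ℕ} (F : (Fin R → α) → (Fin W → α) → α)
    (p₁ p₂ p₃ : ℕ) : Set Ω :=
  {ω | ξ (T^[p₃] ω) ≠ F (win ξ T R (T^[p₁] ω)) (win ξ T W (T^[p₂] ω))}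

/-- the induced map on words. -/
def Fw {R W : ℕ} (F : (Fin R → α) → (Fin W → α) → α) (n : ℕ)
    (u : Fin (n + R) → α) (v : Fin (n + W) → α) : Fin n → α :=
  fun l => F (fun i => u ⟨l + i, by have := l.2; have := i.2; omega⟩)
    (fun j => v ⟨l + j, by have := l.2; have := j.2; omega⟩)

lemma iter3 (T : Ω → Ω) (i p l : ℕ) (ω : Ω) : T^[i] (T^[p] (T^[l] ω)) = T^[l + i] (T^[p] ω) := by
  rw [← Function.iterate_add_apply, ← Function.iterate_add_apply, ← Function.iterate_add_apply]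
  congr 1; omega

lemma block_of_good (ξ : Ω → α) (T : Ω → Ω) {R W : ℕ} (F : (Fin R → α) → (Fin W → α) → α)
    (p₁ p₂ p₃ n : ℕ) (ω : Ω) (h : ∀ l : Fin n, T^[l] ω ∉ Err ξ T F p₁ p₂ p₃) :
    win ξ T n (T^[p₃] ω)
      = Fw F n (win ξ T (n + R) (T^[p₁] ω)) (win ξ T (n + W) (T^[p₂] ω)) := by
  funext l
  have h1 := h l
  simp only [Err, Set.mem_setOf_eq, not_not] at h1
  have h2 : T^[(l : ℕ)] (T^[p₃] ω) = T^[p₃] (T^[(l : ℕ)] ω) := by
    rw [← Function.iterate_add_apply, ← Function.iterate_add_apply, Nat.add_comm]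
  simp only [win, Fw]
  rw [h2, h1]
  congr 1
  · funext i; simp only [win]; rw [iter3]
  · funext j; simp only [win]; rw [iter3]

section finite_alpha

variable [Finite α] [MeasurableSpace α] [MeasurableSingletonClass α]

lemma measurableSet_finite {β : Type*} [Finite β] [MeasurableSpace β] [MeasurableSingletonClass β]
    (s : Set β) : MeasurableSet s := (Set.toFinite s).measurableSet

lemma measurableSet_Err {ξ : Ω → α} {T : Ω → Ω} (hξ : Measurable ξ) (hT : Measurable T) {R W : ℕ}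
    (F : (Fin R → α) → (Fin W → α) → α) (p₁ p₂ p₃ : ℕ) : MeasurableSet (Err ξ T F p₁ p₂ p₃) := by
  have hY : Measurable (fun ω => (ξ (T^[p₃] ω), win ξ T R (T^[p₁] ω), win ξ T W (T^[p₂] ω))) :=
    (hξ.comp (hT.iterate _)).prodMk
      (((measurable_win hξ hT R).comp (hT.iterate _)).prodMk
        ((measurable_win hξ hT W).comp (hT.iterate _)))
  exact hY (measurableSet_finite {x | x.1 ≠ F x.2.1 x.2.2})

variable {μ : Measure Ω} [IsProbabilityMeasure μ] {T : Ω → Ω} {ξ : Ω → α}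

/-- mass of a word. -/
noncomputable def mass (μ : Measure Ω) (ξ : Ω → α) (T : Ω → Ω) (K : ℕ) (w : Fin K → α) : ℝ :=
  μ.real (win ξ T K ⁻¹' {w})

lemma mass_nonneg (K : ℕ) (w : Fin K → α) : 0 ≤ mass μ ξ T K w := measureReal_nonneg

lemma mass_le_one (K : ℕ) (w : Fin K → α) : mass μ ξ T K w ≤ 1 := measureReal_le_one

/-- the bad event has small measure. -/
lemma real_bad_le (hT : MeasurePreserving T μ μ) (hξ : Measurable ξ) {R W : ℕ}
    (F : (Fin R → α) → (Fin W → α) → α) (p₁ p₂ p₃ n : ℕ) :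
    μ.real (⋃ l : Fin n, T^[l] ⁻¹' Err ξ T F p₁ p₂ p₃) ≤ n * μ.real (Err ξ T F p₁ p₂ p₃) := by
  calc μ.real (⋃ l : Fin n, T^[l] ⁻¹' Err ξ T F p₁ p₂ p₃)
      ≤ ∑ l : Fin n, μ.real (T^[l] ⁻¹' Err ξ T F p₁ p₂ p₃) := measureReal_iUnion_fintype_le _
    _ = ∑ _l : Fin n, μ.real (Err ξ T F p₁ p₂ p₃) := by
        apply Finset.sum_congr rfl
        intro l _
        exact real_preimage_iterate hT l (measurableSet_Err hξ hT.measurable F p₁ p₂ p₃)
    _ = _ := by simp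

/-- asymptotic determinism hypothesis. -/
def NearDet (μ : Measure Ω) (ξ : Ω → α) (T : Ω → Ω) (W : ℕ) : Prop :=
  ∀ ε > 0, ∃ R : ℕ, ∀ G : ℕ, ∃ (p₁ p₂ p₃ : ℕ) (F : (Fin R → α) → (Fin W → α) → α),
    Far G p₁ p₂ ∧ Far G p₁ p₃ ∧ Far G p₂ p₃ ∧ μ.real (Err ξ T F p₁ p₂ p₃) < ε

/-- The mass comparison inequality. -/
theorem star (hT : MeasurePreserving T μ μ)
    (hmix : ∀ A B, MeasurableSet A → MeasurableSet B →
      Tendsto (fun n : ℕ => μ (A ∩ T^[n] ⁻¹' B)) atTop (𝓝 (μ A * μ B)))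
    (hξ : Measurable ξ) {W : ℕ} (hnd : NearDet μ ξ T W)
    (n : ℕ) (v : Fin (n + W) → α) (w : Fin n → α) (hw : 0 < mass μ ξ T n w) :
    mass μ ξ T (n + W) v ≤ mass μ ξ T n w := by
  classical
  by_contra hcon
  push Not at hcon
  set x := mass μ ξ T (n + W) v with hx
  set y := mass μ ξ T n w with hy
  have hx1 : x ≤ 1 := mass_le_one _ _
  have hy0 : 0 < y := hw
  have hd : 0 < x - y := by linarith
  have hxpos : 0 < x := by linarith
  set c := x * y with hc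
  have hcpos : 0 < c := mul_pos hxpos hy0
  set d := x - y with hdd
  have hd1 : d ≤ 1 := by rw [hdd]; linarith
  have hnn : (0:ℝ) < (n:ℝ) + 2 := by positivity
  set ε := c * d / (4 * ((n:ℝ) + 2)) with hε
  have hεpos : 0 < ε := by positivity
  obtain ⟨R, hR⟩ := hnd ε hεpos
  have hWm := measurable_win hξ hT.measurable
  -- mixing on the finite family of events
  have hmeasC : ∀ K (S : Set (Fin K → α)), MeasurableSet (win ξ T K ⁻¹' S) :=
    fun K S => hWm K (measurableSet_finite S)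
  obtain ⟨G₁, hG₁⟩ := pair_mix_family hT hmix
    (fun S : Set (Fin (n + R) → α) => win ξ T (n + R) ⁻¹' S)
    (fun _ => win ξ T (n + W) ⁻¹' {v}) (fun S => hmeasC _ S) (fun _ => hmeasC _ _) hεpos
  obtain ⟨G₂, hG₂⟩ := pair_mix_family hT hmix
    (fun S : Set (Fin (n + R) → α) => win ξ T (n + R) ⁻¹' S)
    (fun _ => win ξ T n ⁻¹' {w}) (fun S => hmeasC _ S) (fun _ => hmeasC _ _) hεpos
  obtain ⟨G₃, hG₃⟩ := pair_mix hT hmix (hmeasC (n + W) {v}) (hmeasC n {w}) hεpos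
  obtain ⟨p₁, p₂, p₃, F, hf12, hf13, hf23, herr⟩ := hR (max G₁ (max G₂ G₃))
  set S : Set (Fin (n + R) → α) := {u | Fw F n u v = w} with hS
  set Z := T^[p₁] ⁻¹' (win ξ T (n + R) ⁻¹' S) with hZ
  set A₂ := T^[p₂] ⁻¹' (win ξ T (n + W) ⁻¹' {v}) with hA₂
  set A₃ := T^[p₃] ⁻¹' (win ξ T n ⁻¹' {w}) with hA₃
  set Bad := ⋃ l : Fin n, T^[l] ⁻¹' Err ξ T F p₁ p₂ p₃ with hBad
  have hBadle : μ.real Bad ≤ n * ε := by
    calc μ.real Bad ≤ n * μ.real (Err ξ T F p₁ p₂ p₃) := real_bad_le hT hξ F p₁ p₂ p₃ n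
      _ ≤ n * ε := by
          apply mul_le_mul_of_nonneg_left herr.le (by positivity)
  have hgood : ∀ ω, ω ∉ Bad → win ξ T n (T^[p₃] ω)
      = Fw F n (win ξ T (n + R) (T^[p₁] ω)) (win ξ T (n + W) (T^[p₂] ω)) := by
    intro ω hω
    apply block_of_good
    intro l hl
    exact hω (Set.mem_iUnion.mpr ⟨l, hl⟩)
  -- inclusion (a)
  have hincA : Z ∩ A₂ ⊆ (Z ∩ A₃) ∪ Bad := by
    intro ω hω
    by_cases hb : ω ∈ Bad
    · exact Or.inr hb
    · left
      refine ⟨hω.1, ?_⟩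
      have h1 := hgood ω hb
      have h2 : win ξ T (n + R) (T^[p₁] ω) ∈ S := hω.1
      have h3 : win ξ T (n + W) (T^[p₂] ω) = v := hω.2
      rw [h3] at h1
      have h4 : Fw F n (win ξ T (n + R) (T^[p₁] ω)) v = w := h2
      rw [h4] at h1
      exact h1
  -- inclusion (b)
  have hincB : A₂ ∩ A₃ ⊆ Z ∪ Bad := by
    intro ω hω
    by_cases hb : ω ∈ Bad
    · exact Or.inr hb
    · left
      have h1 := hgood ω hb
      have h3 : win ξ T (n + W) (T^[p₂] ω) = v := hω.1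
      have h4 : win ξ T n (T^[p₃] ω) = w := hω.2
      rw [h3, h4] at h1
      exact h1.symm
  set x' := μ.real (win ξ T (n + R) ⁻¹' S) with hx'
  have hZmass : μ.real Z = x' :=
    real_preimage_iterate hT p₁ (hmeasC _ S)
  have hle : ∀ {a b c : ℕ}, a ≤ max G₁ (max G₂ G₃) → Far (max G₁ (max G₂ G₃)) b c → Far a b c :=
    fun h hf => Far.mono h hf
  have h1 : |μ.real (Z ∩ A₂) - x' * x| < ε :=
    hG₁ S p₁ p₂ (hle (le_max_left _ _) hf12)
  have h2 : |μ.real (Z ∩ A₃) - x' * y| < ε :=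
    hG₂ S p₁ p₃ (hle (le_trans (le_max_left _ _) (le_max_right _ _)) hf13)
  have h3 : |μ.real (A₂ ∩ A₃) - x * y| < ε :=
    hG₃ p₂ p₃ (hle (le_trans (le_max_right _ _) (le_max_right _ _)) hf23)
  have h4 : μ.real (Z ∩ A₂) ≤ μ.real (Z ∩ A₃) + n * ε := by
    calc μ.real (Z ∩ A₂) ≤ μ.real ((Z ∩ A₃) ∪ Bad) := measureReal_mono hincA
      _ ≤ μ.real (Z ∩ A₃) + μ.real Bad := measureReal_union_le _ _
      _ ≤ _ := by linarith
  have h5 : μ.real (A₂ ∩ A₃) ≤ x' + n * ε := by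
    calc μ.real (A₂ ∩ A₃) ≤ μ.real (Z ∪ Bad) := measureReal_mono hincB
      _ ≤ μ.real Z + μ.real Bad := measureReal_union_le _ _
      _ ≤ _ := by rw [hZmass]; linarith
  rw [abs_lt] at h1 h2 h3
  -- conclude
  have h6 : x' * d < ((n:ℝ) + 2) * ε := by
    rw [hdd]; nlinarith [h1.1, h2.2]
  have h7 : c - ((n:ℝ) + 1) * ε ≤ x' := by
    rw [hc]; nlinarith [h3.1]
  have h8 : ((n:ℝ) + 2) * ε = c * d / 4 := by
    rw [hε]; field_simp
  have h9 : ((n:ℝ) + 1) * ε ≤ c / 4 := by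
    have : ((n:ℝ) + 1) * ε ≤ ((n:ℝ) + 2) * ε := by nlinarith
    nlinarith
  have h10 : (3 / 4) * c ≤ x' := by linarith
  have h11 : (3 / 4) * c * d ≤ x' * d := mul_le_mul_of_nonneg_right h10 hd.le
  nlinarith [mul_pos hcpos hd]

end finite_alpha

end Vale.Agent.Lib.P102
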