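import Mathlib
import Vale.Agent.Lib.P102.Star

/-! Branching of words and the exponential decay of word masses. -/

namespace Vale.Agent.Lib.P102

open MeasureTheory Filter Topology

variable {Ω : Type*} [MeasurableSpace Ω] {α : Type*}

lemma win_succ (ξ : Ω → α) (T : Ω → Ω) (K : ℕ) (ω : Ω) :
    win ξ T (K + 1) ω = Fin.snoc (α := fun _ => α) (win ξ T K ω) (ξ (T^[K] ω)) := by
  funext i
  refine Fin.lastCases ?_ (fun j => ?_) i
  · simp [win]
  · simp [win]

lemma win_succ_preimage (ξ : Ω → α) (T : Ω → Ω) (K : ℕ) (w : Fin K → α) (c : α) :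
    win ξ T (K + 1) ⁻¹' {(Fin.snoc (α := fun _ => α) w c : Fin (K + 1) → α)}
      = win ξ T K ⁻¹' {w} ∩ (ξ ∘ T^[K]) ⁻¹' {c} := by
  ext ω
  simp only [Set.mem_preimage, Set.mem_singleton_iff, Set.mem_inter_iff, Function.comp]
  rw [win_succ]
  constructor
  · intro h
    have h' := Fin.snoc_injective2 (α := fun _ => α) h
    exact ⟨h'.1, h'.2⟩
  · rintro ⟨h1, h2⟩
    rw [h1, h2]

/-- The tail of a one letter extension. -/
def tailw {K : ℕ} (w : Fin K → α) (c : α) : Fin K → α :=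
  fun i => (Fin.snoc (α := fun _ => α) w c : Fin (K + 1) → α) i.succ

lemma win_tail_of_mem (ξ : Ω → α) (T : Ω → Ω) {K : ℕ} (w : Fin K → α) (c : α) {ω : Ω}
    (h : win ξ T (K + 1) ω = Fin.snoc (α := fun _ => α) w c) :
    win ξ T K (T ω) = tailw w c := by
  funext i
  simp only [win, tailw]
  rw [← h]
  simp [win, Function.iterate_succ_apply]

section main

variable [Fintype α] [MeasurableSpace α] [MeasurableSingletonClass α]
variable {μ : Measure Ω} [IsProbabilityMeasure μ] {T : Ω → Ω} {ξ : Ω → α}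

lemma mass_sum_snoc (hT : Measurable T) (hξ : Measurable ξ) (K : ℕ) (w : Fin K → α) :
    ∑ c, mass μ ξ T (K + 1) (Fin.snoc (α := fun _ => α) w c) = mass μ ξ T K w := by
  have h := sum_fibers (μ := μ) (E := win ξ T K ⁻¹' {w}) (Y := ξ ∘ T^[K])
    (hξ.comp (hT.iterate _)) (measurable_win hξ hT K (measurableSet_singleton w))
  simp only [mass]
  rw [← h]
  apply Finset.sum_congr rfl
  intro c _
  rw [win_succ_preimage]

lemma mass_sum_eq_one (hT : Measurable T) (hξ : Measurable ξ) (K : ℕ) :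
    ∑ w, mass μ ξ T K w = 1 := by
  have h := sum_fibers (μ := μ) (E := Set.univ) (Y := win ξ T K) (measurable_win hξ hT K)
    MeasurableSet.univ
  simp only [Set.univ_inter, probReal_univ] at h
  exact h

/-- Non constant mixing processes branch at every length. -/
theorem exists_branch (hT : MeasurePreserving T μ μ)
    (hmix : ∀ A B, MeasurableSet A → MeasurableSet B →
      Tendsto (fun n : ℕ => μ (A ∩ T^[n] ⁻¹' B)) atTop (𝓝 (μ A * μ B)))
    (hξ : Measurable ξ) (hnc : ¬ ∃ c, ∀ᵐ ω ∂μ, ξ ω = c) (K : ℕ) (hK : 1 ≤ K) :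
    ∃ (w : Fin K → α) (c c' : α), c ≠ c' ∧ 0 < mass μ ξ T (K + 1) (Fin.snoc (α := fun _ => α) w c)
      ∧ 0 < mass μ ξ T (K + 1) (Fin.snoc (α := fun _ => α) w c') := by
  classical
  by_contra hno
  push Not at hno
  have hTm := hT.measurable
  have hWm := measurable_win (T := T) hξ hTm
  have hC : ∀ K (S : Set (Fin K → α)), MeasurableSet (win ξ T K ⁻¹' S) :=
    fun K S => hWm K (measurableSet_finite S)
  -- Step A: a word of positive mass has a unique continuation
  have hA : ∀ w : Fin K → α, 0 < mass μ ξ T K w →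
      ∃ c, mass μ ξ T (K + 1) (Fin.snoc (α := fun _ => α) w c) = mass μ ξ T K w := by
    intro w hw
    have hsum := mass_sum_snoc (μ := μ) hTm hξ K w
    have : ∃ c, 0 < mass μ ξ T (K + 1) (Fin.snoc (α := fun _ => α) w c) := by
      by_contra hall
      push Not at hall
      have : ∑ c, mass μ ξ T (K + 1) (Fin.snoc (α := fun _ => α) w c) ≤ 0 :=
        Finset.sum_nonpos (fun c _ => hall c)
      linarith
    obtain ⟨c, hc⟩ := this
    refine ⟨c, ?_⟩
    rw [← hsum]
    symm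
    apply Finset.sum_eq_single c
    · intro c' _ hne
      have h0 := mass_nonneg (μ := μ) (ξ := ξ) (T := T) (K + 1)
        (Fin.snoc (α := fun _ => α) w c')
      by_contra hne0
      have hpos : 0 < mass μ ξ T (K + 1) (Fin.snoc (α := fun _ => α) w c') :=
        lt_of_le_of_ne h0 (Ne.symm hne0)
      exact absurd (hno w c c' hne.symm hc) (not_le.mpr hpos)
    · intro h; exact absurd (Finset.mem_univ c) h
  -- Step B: the orbit of a word
  have hB : ∀ w₀ : Fin K → α, 0 < mass μ ξ T K w₀ → ∀ t : ℕ, ∃ w' : Fin K → α,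
      0 < mass μ ξ T K w' ∧
      μ.real (win ξ T K ⁻¹' {w₀} \ T^[t] ⁻¹' (win ξ T K ⁻¹' {w'})) = 0 := by
    intro w₀ hw₀ t
    induction t with
    | zero => exact ⟨w₀, hw₀, by simp⟩
    | succ t ih =>
      obtain ⟨w', hw', hnull⟩ := ih
      obtain ⟨c, hc⟩ := hA w' hw'
      refine ⟨tailw w' c, ?_, ?_⟩
      · -- positivity of the mass of the tail
        have hsub : win ξ T (K + 1) ⁻¹' {(Fin.snoc (α := fun _ => α) w' c : Fin (K + 1) → α)}
            ⊆ T ⁻¹' (win ξ T K ⁻¹' {tailw w' c}) := by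
          intro ω hω
          exact win_tail_of_mem ξ T w' c hω
        have h1 : μ.real (T ⁻¹' (win ξ T K ⁻¹' {tailw w' c})) = mass μ ξ T K (tailw w' c) :=
          real_preimage_iterate (s := 1) hT (hC K _)
        have h2 := measureReal_mono (μ := μ) hsub
        rw [h1] at h2
        have h3 : mass μ ξ T (K + 1) (Fin.snoc (α := fun _ => α) w' c)
            ≤ mass μ ξ T K (tailw w' c) := h2
        linarith
      · -- the exceptional set is null
        have hsnoc : win ξ T (K + 1) ⁻¹' {(Fin.snoc (α := fun _ => α) w' c : Fin (K + 1) → α)}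
            ⊆ win ξ T K ⁻¹' {w'} := by
          rw [win_succ_preimage]; exact Set.inter_subset_left
        have hd : μ.real (win ξ T K ⁻¹' {w'}
            \ win ξ T (K + 1) ⁻¹' {(Fin.snoc (α := fun _ => α) w' c : Fin (K + 1) → α)}) = 0 := by
          rw [measureReal_sdiff hsnoc (hC _ _)]
          have : mass μ ξ T (K + 1) (Fin.snoc (α := fun _ => α) w' c) = mass μ ξ T K w' := hc
          simp only [mass] at this
          rw [this]; ring
        have hsub : win ξ T K ⁻¹' {w₀} \ T^[t + 1] ⁻¹' (win ξ T K ⁻¹' {tailw w' c})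
            ⊆ (win ξ T K ⁻¹' {w₀} \ T^[t] ⁻¹' (win ξ T K ⁻¹' {w'}))
              ∪ T^[t] ⁻¹' (win ξ T K ⁻¹' {w'}
                \ win ξ T (K + 1) ⁻¹' {(Fin.snoc (α := fun _ => α) w' c : Fin (K + 1) → α)}) := by
          rintro ω ⟨h0, h1⟩
          by_cases h2 : T^[t] ω ∈ win ξ T K ⁻¹' {w'}
          · right
            refine ⟨h2, fun h3 => h1 ?_⟩
            have := win_tail_of_mem ξ T w' c h3
            simp only [Set.mem_preimage, Set.mem_singleton_iff]
            rw [Function.iterate_succ_apply']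
            exact this
          · left; exact ⟨h0, h2⟩
        have h5 : μ.real (T^[t] ⁻¹' (win ξ T K ⁻¹' {w'}
                \ win ξ T (K + 1) ⁻¹' {(Fin.snoc (α := fun _ => α) w' c : Fin (K + 1) → α)})) = 0 := by
          rw [real_preimage_iterate hT t ((hC _ _).diff (hC _ _))]; exact hd
        apply le_antisymm _ measureReal_nonneg
        calc _ ≤ _ := measureReal_mono hsub
          _ ≤ _ := measureReal_union_le _ _
          _ = 0 := by rw [hnull, h5]; ring
  -- Step C: the correlations take two values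
  have hCC : ∀ w₀ : Fin K → α, 0 < mass μ ξ T K w₀ → ∀ t : ℕ,
      μ.real (win ξ T K ⁻¹' {w₀} ∩ T^[t] ⁻¹' (win ξ T K ⁻¹' {w₀})) ∈
        ({0, mass μ ξ T K w₀} : Set ℝ) := by
    intro w₀ hw₀ t
    obtain ⟨w', _, hnull⟩ := hB w₀ hw₀ t
    by_cases h : w' = w₀
    · right
      subst h
      have h1 := measureReal_inter_add_sdiff (μ := μ) (s := win ξ T K ⁻¹' {w'})
        (t := T^[t] ⁻¹' (win ξ T K ⁻¹' {w'})) ((hTm.iterate t) (hC K _))
      rw [hnull, add_zero] at h1
      exact h1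
    · left
      have hsub : win ξ T K ⁻¹' {w₀} ∩ T^[t] ⁻¹' (win ξ T K ⁻¹' {w₀})
          ⊆ win ξ T K ⁻¹' {w₀} \ T^[t] ⁻¹' (win ξ T K ⁻¹' {w'}) := by
        rintro ω ⟨h1, h2⟩
        refine ⟨h1, fun h3 => h ?_⟩
        have h4 : win ξ T K (T^[t] ω) = w₀ := h2
        have h5 : win ξ T K (T^[t] ω) = w' := h3
        rw [← h5, h4]
      apply le_antisymm _ measureReal_nonneg
      calc _ ≤ _ := measureReal_mono hsub
        _ = 0 := hnull
  -- Step D: positive words have full mass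
  have hD : ∀ w₀ : Fin K → α, 0 < mass μ ξ T K w₀ → mass μ ξ T K w₀ = 1 := by
    intro w₀ hw₀
    have hlim := mix_real (μ := μ) hmix (hC K {w₀}) (hC K {w₀})
    have hcl : IsClosed ({0, mass μ ξ T K w₀} : Set ℝ) :=
      (Set.toFinite _).isClosed
    have hmem := hcl.mem_of_tendsto hlim (Eventually.of_forall (hCC w₀ hw₀))
    rcases hmem with h0 | h1
    · exact absurd h0 (mul_pos hw₀ hw₀).ne'
    · have h2 : mass μ ξ T K w₀ * mass μ ξ T K w₀ = mass μ ξ T K w₀ := h1
      have : mass μ ξ T K w₀ * (mass μ ξ T K w₀ - 1) = 0 := by ring_nf; linarith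
      rcases mul_eq_zero.mp this with h3 | h3
      · exact absurd h3 hw₀.ne'
      · linarith
  -- Step E: conclusion
  obtain ⟨w₀, hw₀⟩ : ∃ w₀ : Fin K → α, 0 < mass μ ξ T K w₀ := by
    by_contra hall
    push Not at hall
    have h1 := mass_sum_eq_one (μ := μ) hTm hξ K
    have h2 : ∑ w, mass μ ξ T K w ≤ 0 := Finset.sum_nonpos (fun w _ => hall w)
    linarith
  have h1 := hD w₀ hw₀
  apply hnc
  refine ⟨w₀ ⟨0, hK⟩, ?_⟩
  have h2 : μ (win ξ T K ⁻¹' {w₀}) = 1 := by
    have : μ.real (win ξ T K ⁻¹' {w₀}) = 1 := h1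
    rw [Measure.real] at this
    rw [← ENNReal.toReal_eq_one_iff]; exact this
  have h3 : ∀ᵐ ω ∂μ, ω ∈ win ξ T K ⁻¹' {w₀} := by
    rw [ae_iff]
    have := (prob_compl_eq_zero_iff (μ := μ) (hC K {w₀})).mpr h2
    exact this
  filter_upwards [h3] with ω hω
  have h4 : win ξ T K ω = w₀ := hω
  have h5 := congrFun h4 ⟨0, hK⟩
  simpa [win] using h5

/-- every word of length `K` has mass at most `q`. -/
def Dec (μ : Measure Ω) (ξ : Ω → α) (T : Ω → Ω) (K : ℕ) (q : ℝ) : Prop :=
  ∀ v : Fin K → α, mass μ ξ T K v ≤ q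

theorem dec_step (hT : MeasurePreserving T μ μ)
    (hmix : ∀ A B, MeasurableSet A → MeasurableSet B →
      Tendsto (fun n : ℕ => μ (A ∩ T^[n] ⁻¹' B)) atTop (𝓝 (μ A * μ B)))
    (hξ : Measurable ξ) (hnc : ¬ ∃ c, ∀ᵐ ω ∂μ, ξ ω = c) {W : ℕ} (hnd : NearDet μ ξ T W)
    {K : ℕ} (hK : 1 ≤ K) {q : ℝ} (h : Dec μ ξ T K q) : Dec μ ξ T (K + 1 + W) (q / 2) := by
  classical
  obtain ⟨w, c, c', hne, hpos, hpos'⟩ := exists_branch hT hmix hξ hnc K hK
  intro v
  have hsum := mass_sum_snoc (μ := μ) hT.measurable hξ K w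
  have h2 : mass μ ξ T (K + 1) (Fin.snoc (α := fun _ => α) w c)
      + mass μ ξ T (K + 1) (Fin.snoc (α := fun _ => α) w c') ≤ q := by
    calc _ ≤ ∑ x, mass μ ξ T (K + 1) (Fin.snoc (α := fun _ => α) w x) :=
          Finset.add_le_sum (fun i _ => mass_nonneg _ _) (Finset.mem_univ c) (Finset.mem_univ c') hne
      _ = mass μ ξ T K w := hsum
      _ ≤ q := h w
  rcases le_total (mass μ ξ T (K + 1) (Fin.snoc (α := fun _ => α) w c))
      (mass μ ξ T (K + 1) (Fin.snoc (α := fun _ => α) w c')) with hle | hle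
  · have := star hT hmix hξ hnd (K + 1) v _ hpos
    linarith
  · have := star hT hmix hξ hnd (K + 1) v _ hpos'
    linarith

lemma dec_mono (hT : Measurable T) (hξ : Measurable ξ) {K N : ℕ} (hKN : K ≤ N) {q : ℝ}
    (h : Dec μ ξ T K q) : Dec μ ξ T N q := by
  intro v
  refine le_trans ?_ (h (fun i => v (Fin.castLE hKN i)))
  refine measureReal_mono ?_ (measure_ne_top _ _)
  intro ω hω
  have h1 : win ξ T N ω = v := hω
  show win ξ T K ω = _
  funext i
  rw [← h1]
  rfl

theorem dec_all (hT : MeasurePreserving T μ μ)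
    (hmix : ∀ A B, MeasurableSet A → MeasurableSet B →
      Tendsto (fun n : ℕ => μ (A ∩ T^[n] ⁻¹' B)) atTop (𝓝 (μ A * μ B)))
    (hξ : Measurable ξ) (hnc : ¬ ∃ c, ∀ᵐ ω ∂μ, ξ ω = c) {W : ℕ} (hnd : NearDet μ ξ T W) (j : ℕ) :
    Dec μ ξ T (1 + j * (W + 1)) ((1 / 2 : ℝ) ^ j) := by
  induction j with
  | zero =>
    intro v
    simpa using mass_le_one (μ := μ) (ξ := ξ) (T := T) _ v
  | succ j ih =>
    have h1 : 1 + (j + 1) * (W + 1) = (1 + j * (W + 1)) + 1 + W := by ring
    rw [h1]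
    have := dec_step hT hmix hξ hnc hnd (K := 1 + j * (W + 1)) (by omega) ih
    rw [pow_succ]
    convert this using 1
    ring

/-- block entropy. -/
noncomputable def ent (μ : Measure Ω) (ξ : Ω → α) (T : Ω → Ω) (K : ℕ) : ℝ :=
  ∑ w : Fin K → α, Real.negMulLog (mass μ ξ T K w)

/-- entropy lower bound under the decay. -/
theorem ent_ge (hT : MeasurePreserving T μ μ)
    (hmix : ∀ A B, MeasurableSet A → MeasurableSet B →
      Tendsto (fun n : ℕ => μ (A ∩ T^[n] ⁻¹' B)) atTop (𝓝 (μ A * μ B)))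
    (hξ : Measurable ξ) (hnc : ¬ ∃ c, ∀ᵐ ω ∂μ, ξ ω = c) {W : ℕ} (hnd : NearDet μ ξ T W) (j N : ℕ)
    (hN : 1 + j * (W + 1) ≤ N) : (j : ℝ) * Real.log 2 ≤ ent μ ξ T N := by
  have h1 : Dec μ ξ T N ((1 / 2 : ℝ) ^ j) :=
    dec_mono hT.measurable hξ hN (dec_all hT hmix hξ hnc hnd j)
  have h2 := entropy_ge (fun w : Fin N → α => mass μ ξ T N w) (fun w => mass_nonneg _ w)
    (mass_sum_eq_one hT.measurable hξ N) (q := (1 / 2 : ℝ) ^ j) (by positivity) h1
  have h3 : - Real.log ((1 / 2 : ℝ) ^ j) = (j : ℝ) * Real.log 2 := by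
    rw [Real.log_pow, one_div, Real.log_inv]; ring
  rw [h3] at h2
  exact h2

end main

end Vale.Agent.Lib.P102
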