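import Mathlib
import Vale.Agent.Lib.P102.Branch

/-! Chain inequality for block entropies. -/

namespace Vale.Agent.Lib.P102

open MeasureTheory Filter Topology

variable {Ω : Type*} [MeasurableSpace Ω] {α : Type*}

section chain

variable {μ : Measure Ω} [IsProbabilityMeasure μ]

/-- Chain inequality for a pair of finite valued random variables. -/
lemma chain_rv {ι κ : Type*} [Fintype ι] [Fintype κ] [DecidableEq κ]
    [MeasurableSpace ι] [MeasurableSingletonClass ι] [MeasurableSpace κ] [MeasurableSingletonClass κ]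
    {A : Ω → ι} {B : Ω → κ} (hA : Measurable A) (hB : Measurable B)
    (S : ι → Finset κ) (C : ℕ) (hC : 1 ≤ C) (hS : ∀ i, (S i).card ≤ C) :
    ∑ i, ∑ j, Real.negMulLog (μ.real (A ⁻¹' {i} ∩ B ⁻¹' {j}))
      ≤ ∑ i, Real.negMulLog (μ.real (A ⁻¹' {i})) + Real.log C
        + (2 * (Fintype.card κ : ℝ) + 1) * Real.sqrt (μ.real {ω | B ω ∉ S (A ω)}) := by
  classical
  have hAi : ∀ i, MeasurableSet (A ⁻¹' {i}) := fun i => hA (measurableSet_singleton i)
  have hsumj : ∀ i, ∑ j, μ.real (A ⁻¹' {i} ∩ B ⁻¹' {j}) = μ.real (A ⁻¹' {i}) :=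
    fun i => sum_fibers hB (hAi i)
  have hsum : ∑ i, ∑ j, μ.real (A ⁻¹' {i} ∩ B ⁻¹' {j}) = 1 := by
    simp_rw [hsumj]
    have := sum_fibers (μ := μ) (E := Set.univ) hA MeasurableSet.univ
    simpa using this
  have hU : MeasurableSet {ω | B ω ∉ S (A ω)} := by
    have hY : Measurable (fun ω => (A ω, B ω)) := hA.prodMk hB
    exact hY ((Set.toFinite {x : ι × κ | x.2 ∉ S x.1}).measurableSet)
  have htau : ∑ i, ∑ j ∈ (S i)ᶜ, μ.real (A ⁻¹' {i} ∩ B ⁻¹' {j})
      = μ.real {ω | B ω ∉ S (A ω)} := by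
    rw [← sum_fibers (μ := μ) hA hU]
    apply Finset.sum_congr rfl
    intro i _
    rw [← sum_fibers (μ := μ) hB (hU.inter (hAi i))]
    have hzero : ∀ j ∈ Finset.univ, j ∉ (S i)ᶜ →
        μ.real (({ω | B ω ∉ S (A ω)} ∩ A ⁻¹' {i}) ∩ B ⁻¹' {j}) = 0 := by
      intro j _ hj
      have hj' : j ∈ S i := by simpa using hj
      have : ({ω | B ω ∉ S (A ω)} ∩ A ⁻¹' {i}) ∩ B ⁻¹' {j} = ∅ := by
        ext ω
        simp only [Set.mem_inter_iff, Set.mem_setOf_eq, Set.mem_preimage, Set.mem_singleton_iff,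
          Set.mem_empty_iff_false, iff_false, not_and]
        rintro ⟨h1, h2⟩ h3
        rw [h2, h3] at h1
        exact h1 hj'
      rw [this]; simp
    rw [← Finset.sum_subset (Finset.subset_univ _) hzero]
    apply Finset.sum_congr rfl
    intro j hj
    have hj' : j ∉ S i := by simpa using hj
    congr 1
    ext ω
    simp only [Set.mem_inter_iff, Set.mem_setOf_eq, Set.mem_preimage, Set.mem_singleton_iff]
    constructor
    · rintro ⟨h1, h2⟩
      refine ⟨⟨?_, h1⟩, h2⟩
      rw [h1, h2]; exact hj'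
    · rintro ⟨⟨_, h1⟩, h2⟩
      exact ⟨h1, h2⟩
  have h := chain_ineq (fun i j => μ.real (A ⁻¹' {i} ∩ B ⁻¹' {j}))
    (fun i j => measureReal_nonneg) hsum S C hC hS
  simp only [hsumj, htau] at h
  exact h

end chain

lemma win_append (ξ : Ω → α) (T : Ω → Ω) (N L : ℕ) (ω : Ω) :
    win ξ T (N + L) ω = Fin.append (win ξ T N ω) (win ξ T L (T^[N] ω)) := by
  funext i
  refine Fin.addCases (fun j => ?_) (fun j => ?_) i
  · simp [win]
  · simp only [Fin.append_right, win, Fin.val_natAdd]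
    rw [← Function.iterate_add_apply, Nat.add_comm]

lemma win_append_preimage (ξ : Ω → α) (T : Ω → Ω) (N L : ℕ) (i : Fin N → α) (j : Fin L → α) :
    win ξ T (N + L) ⁻¹' {Fin.append i j}
      = win ξ T N ⁻¹' {i} ∩ T^[N] ⁻¹' (win ξ T L ⁻¹' {j}) := by
  ext ω
  simp only [Set.mem_preimage, Set.mem_singleton_iff, Set.mem_inter_iff]
  rw [win_append]
  have hinj := (Fin.appendEquiv (α := α) N L).injective
  constructor
  · intro h
    have h1 : (win ξ T N ω, win ξ T L (T^[N] ω)) = (i, j) := hinj h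
    exact Prod.ext_iff.mp h1
  · rintro ⟨h1, h2⟩
    rw [h1, h2]

section main

variable [Fintype α] [MeasurableSpace α] [MeasurableSingletonClass α]
variable {μ : Measure Ω} [IsProbabilityMeasure μ] {T : Ω → Ω} {ξ : Ω → α}

/-- Forward chain: appending a block on the right. -/
theorem ent_forward (hT : Measurable T) (hξ : Measurable ξ) (N L C : ℕ) (hC : 1 ≤ C)
    (S : (Fin N → α) → Finset (Fin L → α)) (hS : ∀ i, (S i).card ≤ C) :
    ent μ ξ T (N + L) ≤ ent μ ξ T N + Real.log C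
      + (2 * (Fintype.card (Fin L → α) : ℝ) + 1)
        * Real.sqrt (μ.real {ω | win ξ T L (T^[N] ω) ∉ S (win ξ T N ω)}) := by
  classical
  have hA := measurable_win (T := T) hξ hT N
  have hB : Measurable (fun ω => win ξ T L (T^[N] ω)) :=
    (measurable_win hξ hT L).comp (hT.iterate N)
  have h := chain_rv (μ := μ) hA hB S C hC hS
  have h1 : ent μ ξ T (N + L)
      = ∑ i, ∑ j, Real.negMulLog (μ.real (win ξ T N ⁻¹' {i} ∩ (fun ω => win ξ T L (T^[N] ω)) ⁻¹' {j})) := by
    rw [ent, ← (Fin.appendEquiv (α := α) N L).sum_comp, Fintype.sum_prod_type]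
    apply Finset.sum_congr rfl; intro i _
    apply Finset.sum_congr rfl; intro j _
    have hap : (Fin.appendEquiv (α := α) N L) (i, j) = Fin.append i j := rfl
    simp only [mass]
    rw [hap, win_append_preimage]
    rfl
  rw [h1]
  exact h

/-- Backward chain: appending a block on the left. -/
theorem ent_backward (hT : MeasurePreserving T μ μ) (hξ : Measurable ξ) (N L C : ℕ) (hC : 1 ≤ C)
    (S : (Fin N → α) → Finset (Fin L → α)) (hS : ∀ i, (S i).card ≤ C) :
    ent μ ξ T (L + N) ≤ ent μ ξ T N + Real.log C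
      + (2 * (Fintype.card (Fin L → α) : ℝ) + 1)
        * Real.sqrt (μ.real {ω | win ξ T L ω ∉ S (win ξ T N (T^[L] ω))}) := by
  classical
  have hTm := hT.measurable
  have hA : Measurable (fun ω => win ξ T N (T^[L] ω)) :=
    (measurable_win hξ hTm N).comp (hTm.iterate L)
  have hB := measurable_win (T := T) hξ hTm L
  have h := chain_rv (μ := μ) hA hB S C hC hS
  have h1 : ent μ ξ T (L + N)
      = ∑ i, ∑ j, Real.negMulLog (μ.real ((fun ω => win ξ T N (T^[L] ω)) ⁻¹' {i} ∩ win ξ T L ⁻¹' {j})) := by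
    rw [ent, ← (Fin.appendEquiv (α := α) L N).sum_comp, Fintype.sum_prod_type, Finset.sum_comm]
    apply Finset.sum_congr rfl; intro i _
    apply Finset.sum_congr rfl; intro j _
    have hap : (Fin.appendEquiv (α := α) L N) (j, i) = Fin.append j i := rfl
    simp only [mass]
    rw [hap, win_append_preimage, Set.inter_comm]
    rfl
  have h2 : ∑ i, Real.negMulLog (μ.real ((fun ω => win ξ T N (T^[L] ω)) ⁻¹' {i})) = ent μ ξ T N := by
    rw [ent]
    apply Finset.sum_congr rfl; intro i _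
    simp only [mass]
    have := real_preimage_iterate hT L (measurable_win hξ hTm N (measurableSet_singleton i))
    rw [← this]
    rfl
  rw [h1]
  rw [h2] at h
  exact h

/-- A linear entropy bound along an arithmetic progression contradicts the lower bound. -/
theorem false_of_chain (hT : MeasurePreserving T μ μ)
    (hmix : ∀ A B, MeasurableSet A → MeasurableSet B →
      Tendsto (fun n : ℕ => μ (A ∩ T^[n] ⁻¹' B)) atTop (𝓝 (μ A * μ B)))
    (hξ : Measurable ξ) (hnc : ¬ ∃ c, ∀ᵐ ω ∂μ, ξ ω = c) {W : ℕ} (hnd : NearDet μ ξ T W)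
    (N₀ L : ℕ) (hL : 1 ≤ L) (B : ℝ) (hstep : ∀ N, N₀ ≤ N → ent μ ξ T (N + L) ≤ ent μ ξ T N + B)
    (hB : B * ((W : ℝ) + 1) < (L : ℝ) * Real.log 2) : False := by
  have hlog2 : 0 < Real.log 2 := Real.log_pos (by norm_num)
  have hiter : ∀ t : ℕ, ent μ ξ T (N₀ + t * L) ≤ ent μ ξ T N₀ + t * B := by
    intro t
    induction t with
    | zero => simp
    | succ t ih =>
      have h1 := hstep (N₀ + t * L) (by omega)
      have h2 : N₀ + (t + 1) * L = N₀ + t * L + L := by ring
      rw [h2]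
      push_cast
      nlinarith
  set κ : ℝ := (L : ℝ) * Real.log 2 - B * ((W : ℝ) + 1) with hκ
  have hκpos : 0 < κ := by rw [hκ]; linarith
  have hW : (0:ℝ) < (W : ℝ) + 1 := by positivity
  obtain ⟨t, ht⟩ := exists_nat_gt
    ((((W : ℝ) + 1) * (ent μ ξ T N₀ + B + Real.log 2)) / κ)
  rw [div_lt_iff₀ hκpos] at ht
  set j := (t * L) / (W + 1) with hj
  have hj1 : j * (W + 1) ≤ t * L := Nat.div_mul_le_self _ _
  have hLL : (t + 1) * L = t * L + L := by ring
  have hjN : 1 + j * (W + 1) ≤ N₀ + (t + 1) * L := by omega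
  have hlow := ent_ge hT hmix hξ hnc hnd j (N₀ + (t + 1) * L) hjN
  have hup := hiter (t + 1)
  have hdec : t * L < (j + 1) * (W + 1) := by
    have h1 := Nat.div_add_mod (t * L) (W + 1)
    have h2 := Nat.mod_lt (t * L) (show 0 < W + 1 by omega)
    have h3 : (j + 1) * (W + 1) = (W + 1) * j + (W + 1) := by ring
    rw [h3]
    rw [← hj] at h1
    omega
  have hjreal : (t : ℝ) * L < ((j : ℝ) + 1) * ((W : ℝ) + 1) := by exact_mod_cast hdec
  have hcomb : (j : ℝ) * Real.log 2 ≤ ent μ ξ T N₀ + ((t : ℝ) + 1) * B := by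
    have : ((t + 1 : ℕ) : ℝ) = (t : ℝ) + 1 := by push_cast; ring
    rw [this] at hup
    linarith
  have a := mul_le_mul_of_nonneg_right hcomb hW.le
  have b := mul_lt_mul_of_pos_right hjreal hlog2
  have ht2 : ((W : ℝ) + 1) * (ent μ ξ T N₀ + B + Real.log 2) < (t : ℝ) * κ := ht
  rw [hκ] at ht2
  nlinarith

end main

end Vale.Agent.Lib.P102
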