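import Mathlib
import Vale.Agent.Lib.P102.Chain

/-! The case where the predicted letter lies after or before both windows. -/

namespace Vale.Agent.Lib.P102

open MeasureTheory Filter Topology

variable {Ω : Type*} [MeasurableSpace Ω] {α : Type*}

lemma iter3' (T : Ω → Ω) (i p l : ℕ) (ω : Ω) : T^[i] (T^[p] (T^[l] ω)) = T^[p + l + i] ω := by
  rw [← Function.iterate_add_apply, ← Function.iterate_add_apply]
  congr 1; omega

section main

variable [Fintype α] [MeasurableSpace α] [MeasurableSingletonClass α]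
variable {μ : Measure Ω} [IsProbabilityMeasure μ] {T : Ω → Ω} {ξ : Ω → α}

lemma real_Err_shift (hT : MeasurePreserving T μ μ) (hξ : Measurable ξ) {R W : ℕ}
    (F : (Fin R → α) → (Fin W → α) → α) (p₁ p₂ p₃ s : ℕ) :
    μ.real (Err ξ T F (p₁ + s) (p₂ + s) (p₃ + s)) = μ.real (Err ξ T F p₁ p₂ p₃) := by
  have h : Err ξ T F (p₁ + s) (p₂ + s) (p₃ + s) = T^[s] ⁻¹' (Err ξ T F p₁ p₂ p₃) := by
    ext ω
    simp only [Err, Set.mem_preimage, Set.mem_setOf_eq, Function.iterate_add_apply]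
  rw [h]
  exact real_preimage_iterate hT s (measurableSet_Err hξ hT.measurable F p₁ p₂ p₃)

/-- One letter chain step when the predicted letter comes last. -/
lemma chain_last (hT : MeasurePreserving T μ μ) (hξ : Measurable ξ) {R W : ℕ}
    (F : (Fin R → α) → (Fin W → α) → α) (p₁ p₂ p₃ : ℕ) (h₁ : p₁ + R ≤ p₃) (h₂ : p₂ + W ≤ p₃)
    (N : ℕ) (hN : p₃ ≤ N) :
    ent μ ξ T (N + 1) ≤ ent μ ξ T N
      + (2 * (Fintype.card (Fin 1 → α) : ℝ) + 1) * Real.sqrt (μ.real (Err ξ T F p₁ p₂ p₃)) := by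
  classical
  obtain ⟨l, rfl⟩ : ∃ l, N = p₃ + l := ⟨N - p₃, by omega⟩
  set pred : (Fin (p₃ + l) → α) → α := fun u =>
    F (fun i => u ⟨p₁ + l + i, by have := i.2; omega⟩)
      (fun j => u ⟨p₂ + l + j, by have := j.2; omega⟩) with hpred
  have h := ent_forward (μ := μ) (ξ := ξ) (T := T) hT.measurable hξ (p₃ + l) 1 1 le_rfl
    (fun u => {fun _ => pred u}) (fun _ => by simp)
  have hsub : {ω | win ξ T 1 (T^[p₃ + l] ω) ∉ ({fun _ => pred (win ξ T (p₃ + l) ω)} : Finset (Fin 1 → α))}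
      ⊆ T^[l] ⁻¹' (Err ξ T F p₁ p₂ p₃) := by
    intro ω hω
    by_contra hne
    apply hω
    have hne' : ξ (T^[p₃] (T^[l] ω)) = F (win ξ T R (T^[p₁] (T^[l] ω))) (win ξ T W (T^[p₂] (T^[l] ω))) := by
      simpa [Err] using hne
    have h3 : win ξ T 1 (T^[p₃ + l] ω) = fun _ => pred (win ξ T (p₃ + l) ω) := by
      funext i
      have hi : (i : ℕ) = 0 := by have := i.2; omega
      simp only [win, hi, Function.iterate_zero, id]
      rw [Function.iterate_add_apply, hne', hpred]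
      simp only
      congr 1
      · funext a; simp only [win]; rw [iter3']
      · funext a; simp only [win]; rw [iter3']
    simp [h3]
  have hle : μ.real {ω | win ξ T 1 (T^[p₃ + l] ω) ∉ ({fun _ => pred (win ξ T (p₃ + l) ω)} : Finset (Fin 1 → α))}
      ≤ μ.real (Err ξ T F p₁ p₂ p₃) := by
    calc _ ≤ μ.real (T^[l] ⁻¹' (Err ξ T F p₁ p₂ p₃)) := measureReal_mono hsub
      _ = _ := real_preimage_iterate hT l (measurableSet_Err hξ hT.measurable F p₁ p₂ p₃)
  have hs := Real.sqrt_le_sqrt hle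
  have hc : (0:ℝ) ≤ 2 * (Fintype.card (Fin 1 → α) : ℝ) + 1 := by positivity
  have := mul_le_mul_of_nonneg_left hs hc
  simp only [Nat.cast_one, Real.log_one, add_zero] at h
  linarith

/-- One letter chain step when the predicted letter comes first. -/
lemma chain_first (hT : MeasurePreserving T μ μ) (hξ : Measurable ξ) {R W : ℕ}
    (F : (Fin R → α) → (Fin W → α) → α) (p₁ p₂ p₃ : ℕ) (h₁ : p₃ + 1 ≤ p₁) (h₂ : p₃ + 1 ≤ p₂)
    (N : ℕ) (hN₁ : p₁ + R ≤ N) (hN₂ : p₂ + W ≤ N) :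
    ent μ ξ T (N + 1) ≤ ent μ ξ T N
      + (2 * (Fintype.card (Fin 1 → α) : ℝ) + 1) * Real.sqrt (μ.real (Err ξ T F p₁ p₂ p₃)) := by
  classical
  obtain ⟨q₁, rfl⟩ : ∃ q₁, p₁ = q₁ + 1 + p₃ := ⟨p₁ - p₃ - 1, by omega⟩
  obtain ⟨q₂, rfl⟩ : ∃ q₂, p₂ = q₂ + 1 + p₃ := ⟨p₂ - p₃ - 1, by omega⟩
  have hshift := real_Err_shift (μ := μ) hT hξ F (q₁ + 1) (q₂ + 1) 0 p₃
  rw [Nat.zero_add] at hshift
  rw [hshift, Nat.add_comm N 1]
  set pred : (Fin N → α) → α := fun u =>
    F (fun i => u ⟨q₁ + i, by have := i.2; omega⟩)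
      (fun j => u ⟨q₂ + j, by have := j.2; omega⟩) with hpred
  have h := ent_backward (μ := μ) (ξ := ξ) (T := T) hT hξ N 1 1 le_rfl
    (fun u => {fun _ => pred u}) (fun _ => by simp)
  have hsub : {ω | win ξ T 1 ω ∉ ({fun _ => pred (win ξ T N (T^[1] ω))} : Finset (Fin 1 → α))}
      ⊆ Err ξ T F (q₁ + 1) (q₂ + 1) 0 := by
    intro ω hω
    by_contra hne
    apply hω
    have hne' : ξ ω = F (win ξ T R (T^[q₁ + 1] ω)) (win ξ T W (T^[q₂ + 1] ω)) := by
      simpa [Err] using hne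
    have h3 : win ξ T 1 ω = fun _ => pred (win ξ T N (T^[1] ω)) := by
      funext i
      have hi : (i : ℕ) = 0 := by have := i.2; omega
      simp only [win, hi, Function.iterate_zero, id]
      rw [hne', hpred]
      simp only
      congr 1
      · funext a; simp only [win]; rw [← Function.iterate_add_apply, ← Function.iterate_add_apply]
        congr 2; omega
      · funext a; simp only [win]; rw [← Function.iterate_add_apply, ← Function.iterate_add_apply]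
        congr 2; omega
    simp [h3]
  have hle : μ.real {ω | win ξ T 1 ω ∉ ({fun _ => pred (win ξ T N (T^[1] ω))} : Finset (Fin 1 → α))}
      ≤ μ.real (Err ξ T F (q₁ + 1) (q₂ + 1) 0) := measureReal_mono hsub
  have hs := Real.sqrt_le_sqrt hle
  have hc : (0:ℝ) ≤ 2 * (Fintype.card (Fin 1 → α) : ℝ) + 1 := by positivity
  have := mul_le_mul_of_nonneg_left hs hc
  simp only [Nat.cast_one, Real.log_one, add_zero] at h
  linarith

/-- Main theorem for the outer position of the predicted letter. -/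
theorem no_neardet_outer (hT : MeasurePreserving T μ μ)
    (hmix : ∀ A B, MeasurableSet A → MeasurableSet B →
      Tendsto (fun n : ℕ => μ (A ∩ T^[n] ⁻¹' B)) atTop (𝓝 (μ A * μ B)))
    (hξ : Measurable ξ) (hnc : ¬ ∃ c, ∀ᵐ ω ∂μ, ξ ω = c) (W : ℕ) :
    ∃ ε > 0, ∀ R : ℕ, ∃ G : ℕ, ∀ (p₁ p₂ p₃ : ℕ) (F : (Fin R → α) → (Fin W → α) → α),
      Far G p₁ p₂ → ((p₁ + G ≤ p₃ ∧ p₂ + G ≤ p₃) ∨ (p₃ + G ≤ p₁ ∧ p₃ + G ≤ p₂)) →
      ε ≤ μ.real (Err ξ T F p₁ p₂ p₃) := by
  classical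
  by_contra hcon
  push Not at hcon
  have hnd : NearDet μ ξ T W := by
    intro ε hε
    obtain ⟨R, hR⟩ := hcon ε hε
    refine ⟨R, fun G => ?_⟩
    obtain ⟨p₁, p₂, p₃, F, h12, horder, herr⟩ := hR G
    refine ⟨p₁, p₂, p₃, F, h12, ?_, ?_, herr⟩
    · unfold Far; omega
    · unfold Far; omega
  have hlog2 : 0 < Real.log 2 := Real.log_pos (by norm_num)
  set c₁ : ℝ := 2 * (Fintype.card (Fin 1 → α) : ℝ) + 1 with hc₁
  have hc₁pos : 0 < c₁ := by positivity
  have hW : (0:ℝ) < (W:ℝ) + 1 := by positivity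
  set κ : ℝ := Real.log 2 / (2 * c₁ * ((W:ℝ) + 1)) with hκ
  have hκpos : 0 < κ := by positivity
  obtain ⟨R, hR⟩ := hcon (κ ^ 2) (by positivity)
  obtain ⟨p₁, p₂, p₃, F, h12, horder, herr⟩ := hR (max R W + 1)
  have hsq : Real.sqrt (μ.real (Err ξ T F p₁ p₂ p₃)) < κ := by
    rw [Real.sqrt_lt' hκpos]; exact herr
  have hRle : R ≤ max R W := le_max_left _ _
  have hWle : W ≤ max R W := le_max_right _ _
  set B : ℝ := c₁ * Real.sqrt (μ.real (Err ξ T F p₁ p₂ p₃)) with hB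
  have hBlt : B * ((W:ℝ) + 1) < ((1:ℕ):ℝ) * Real.log 2 := by
    have h1 : B < c₁ * κ := mul_lt_mul_of_pos_left hsq hc₁pos
    have h2 : c₁ * κ * ((W:ℝ) + 1) = Real.log 2 / 2 := by
      rw [hκ]; field_simp
    have h3 : B * ((W:ℝ) + 1) < c₁ * κ * ((W:ℝ) + 1) := mul_lt_mul_of_pos_right h1 hW
    rw [h2] at h3
    simp only [Nat.cast_one, one_mul]
    linarith
  rcases horder with ⟨h13, h23⟩ | ⟨h31, h32⟩
  · refine false_of_chain hT hmix hξ hnc hnd p₃ 1 le_rfl B ?_ hBlt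
    intro N hN
    exact chain_last hT hξ F p₁ p₂ p₃ (by omega) (by omega) N hN
  · refine false_of_chain hT hmix hξ hnc hnd (p₁ + p₂ + R + W) 1 le_rfl B ?_ hBlt
    intro N hN
    exact chain_first hT hξ F p₁ p₂ p₃ (by omega) (by omega) N (by omega) (by omega)

end main

end Vale.Agent.Lib.P102
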