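import Mathlib
import Vale.Agent.Lib.P102.Outer

/-! The case where the predicted letter lies between the two windows. -/

namespace Vale.Agent.Lib.P102

open MeasureTheory Filter Topology

variable {Ω : Type*} [MeasurableSpace Ω] {α : Type*}

section main

variable [Fintype α] [MeasurableSpace α] [MeasurableSingletonClass α]
variable {μ : Measure Ω} [IsProbabilityMeasure μ] {T : Ω → Ω} {ξ : Ω → α}

/-- Mass of a set of words as a sum. -/
lemma real_cyl_finset (hT : Measurable T) (hξ : Measurable ξ) (K : ℕ) (A : Finset (Fin K → α)) :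
    μ.real (win ξ T K ⁻¹' (A : Set (Fin K → α))) = ∑ y ∈ A, mass μ ξ T K y := by
  classical
  have hm := measurable_win (T := T) hξ hT K
  rw [← sum_fibers (μ := μ) hm (hm (measurableSet_finite (A : Set (Fin K → α))))]
  have hzero : ∀ y ∈ Finset.univ, y ∉ A →
      μ.real (win ξ T K ⁻¹' (A : Set (Fin K → α)) ∩ win ξ T K ⁻¹' {y}) = 0 := by
    intro y _ hy
    have : win ξ T K ⁻¹' (A : Set (Fin K → α)) ∩ win ξ T K ⁻¹' {y} = ∅ := by
      ext ω
      simp only [Set.mem_inter_iff, Set.mem_preimage, Finset.mem_coe, Set.mem_singleton_iff,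
        Set.mem_empty_iff_false, iff_false, not_and]
      intro h1 h2
      rw [h2] at h1
      exact hy h1
    rw [this]; simp
  rw [← Finset.sum_subset (Finset.subset_univ A) hzero]
  apply Finset.sum_congr rfl
  intro y hy
  simp only [mass]
  congr 1
  ext ω
  simp only [Set.mem_preimage, Set.mem_singleton_iff, Set.mem_inter_iff, Finset.mem_coe]
  constructor
  · rintro ⟨_, h⟩; exact h
  · intro h; exact ⟨by rw [h]; exact hy, h⟩

/-- Extension of a word by `L` letters with comparable mass. -/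
lemma exists_ext (hT : Measurable T) (hξ : Measurable ξ) (K L : ℕ) (w : Fin K → α)
    (hw : 0 < mass μ ξ T K w) :
    ∃ e : Fin L → α, mass μ ξ T K w ≤ (Fintype.card (Fin L → α) : ℝ)
      * mass μ ξ T (K + L) (Fin.append w e) := by
  classical
  have hsum : ∑ e : Fin L → α, mass μ ξ T (K + L) (Fin.append w e) = mass μ ξ T K w := by
    have hY : Measurable (fun ω => win ξ T L (T^[K] ω)) :=
      (measurable_win hξ hT L).comp (hT.iterate K)
    have h := sum_fibers (μ := μ) (E := win ξ T K ⁻¹' {w}) hY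
      (measurable_win hξ hT K (measurableSet_singleton w))
    simp only [mass]
    rw [← h]
    apply Finset.sum_congr rfl
    intro e _
    rw [win_append_preimage]
    rfl
  by_contra hcon
  push Not at hcon
  have hne : (Finset.univ : Finset (Fin L → α)).Nonempty := by
    by_contra hem
    rw [Finset.not_nonempty_iff_eq_empty] at hem
    rw [hem] at hsum
    simp only [Finset.sum_empty] at hsum
    linarith
  have hN : (0:ℝ) < (Fintype.card (Fin L → α) : ℝ) := by
    exact_mod_cast Fintype.card_pos_iff.mpr (by obtain ⟨e, _⟩ := hne; exact ⟨e⟩)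
  have h1 : ∑ e : Fin L → α, ((Fintype.card (Fin L → α) : ℝ) * mass μ ξ T (K + L) (Fin.append w e))
      < ∑ _e : Fin L → α, mass μ ξ T K w :=
    Finset.sum_lt_sum_of_nonempty hne (fun e _ => hcon e)
  rw [← Finset.mul_sum, hsum, Finset.sum_const, nsmul_eq_mul, Finset.card_univ] at h1
  exact lt_irrefl _ h1

/-- Every positive word of length `n + W` has mass comparable to any word of length `n`. -/
lemma mass_compare (hT : MeasurePreserving T μ μ)
    (hmix : ∀ A B, MeasurableSet A → MeasurableSet B →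
      Tendsto (fun n : ℕ => μ (A ∩ T^[n] ⁻¹' B)) atTop (𝓝 (μ A * μ B)))
    (hξ : Measurable ξ) {W : ℕ} (hnd : NearDet μ ξ T W) (n : ℕ)
    (y : Fin (n + W) → α) (hy : 0 < mass μ ξ T (n + W) y) (v : Fin n → α) :
    mass μ ξ T n v ≤ ((Fintype.card (Fin W → α) : ℝ)) ^ 2 * mass μ ξ T (n + W) y := by
  classical
  rcases (mass_nonneg (μ := μ) (ξ := ξ) (T := T) n v).eq_or_lt with h0 | hv
  · rw [← h0]; positivity
  · obtain ⟨e₁, he₁⟩ := exists_ext (μ := μ) hT.measurable hξ n W v hv
    have hN : (0:ℝ) ≤ (Fintype.card (Fin W → α) : ℝ) := by positivity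
    have hpos₁ : 0 < mass μ ξ T (n + W) (Fin.append v e₁) := by
      rcases (mass_nonneg (μ := μ) (ξ := ξ) (T := T) (n + W) (Fin.append v e₁)).eq_or_lt with h0 | h1
      · rw [← h0, mul_zero] at he₁; linarith
      · exact h1
    obtain ⟨e₂, he₂⟩ := exists_ext (μ := μ) hT.measurable hξ (n + W) W _ hpos₁
    have h3 := star hT hmix hξ hnd (n + W) (Fin.append (Fin.append v e₁) e₂) y hy
    calc mass μ ξ T n v ≤ (Fintype.card (Fin W → α) : ℝ) * mass μ ξ T (n + W) (Fin.append v e₁) := he₁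
      _ ≤ (Fintype.card (Fin W → α) : ℝ) * ((Fintype.card (Fin W → α) : ℝ)
            * mass μ ξ T (n + W + W) (Fin.append (Fin.append v e₁) e₂)) :=
          mul_le_mul_of_nonneg_left he₂ hN
      _ ≤ (Fintype.card (Fin W → α) : ℝ) * ((Fintype.card (Fin W → α) : ℝ)
            * mass μ ξ T (n + W) y) :=
          mul_le_mul_of_nonneg_left (mul_le_mul_of_nonneg_left h3 hN) hN
      _ = _ := by ring

open Classical in
/-- Words in the window at `p₂` compatible with given values elsewhere. -/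
noncomputable def S0 (μ : Measure Ω) (ξ : Ω → α) (T : Ω → Ω) {R W : ℕ}
    (F : (Fin R → α) → (Fin W → α) → α) (n : ℕ) (z : Fin (n + R) → α) (v : Fin n → α) :
    Finset (Fin (n + W) → α) :=
  Finset.univ.filter (fun y => Fw F n z y = v ∧ 0 < mass μ ξ T (n + W) y)

open Classical in
/-- The prediction set: the compatible words when there are few of them. -/
noncomputable def Spred (μ : Measure Ω) (ξ : Ω → α) (T : Ω → Ω) {R W : ℕ}
    (F : (Fin R → α) → (Fin W → α) → α) (n C : ℕ) (z : Fin (n + R) → α) (v : Fin n → α) :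
    Finset (Fin (n + W) → α) :=
  if (S0 μ ξ T F n z v).card ≤ C then S0 μ ξ T F n z v else ∅

lemma Spred_card_le {R W : ℕ} (F : (Fin R → α) → (Fin W → α) → α) (n C : ℕ)
    (z : Fin (n + R) → α) (v : Fin n → α) : (Spred μ ξ T F n C z v).card ≤ C := by
  classical
  unfold Spred
  split_ifs with h
  · exact h
  · simp

/-- Mass estimate for the large fibres. -/
lemma sum_S0_ge (hT : MeasurePreserving T μ μ)
    (hmix : ∀ A B, MeasurableSet A → MeasurableSet B →
      Tendsto (fun n : ℕ => μ (A ∩ T^[n] ⁻¹' B)) atTop (𝓝 (μ A * μ B)))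
    (hξ : Measurable ξ) {R W : ℕ} (hnd : NearDet μ ξ T W)
    (F : (Fin R → α) → (Fin W → α) → α) (n : ℕ) (z : Fin (n + R) → α) (v : Fin n → α)
    (hlarge : 2 * (Fintype.card (Fin W → α)) ^ 2 < (S0 μ ξ T F n z v).card) :
    2 * mass μ ξ T n v ≤ ∑ y ∈ S0 μ ξ T F n z v, mass μ ξ T (n + W) y := by
  classical
  set N : ℝ := (Fintype.card (Fin W → α) : ℝ) ^ 2 with hN
  have hcomp : ∀ y ∈ S0 μ ξ T F n z v, mass μ ξ T n v ≤ N * mass μ ξ T (n + W) y := by
    intro y hy
    have hy' := (Finset.mem_filter.mp hy).2.2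
    exact mass_compare hT hmix hξ hnd n y hy' v
  have hNpos : 0 < N := by
    by_contra hN0
    have hN1 : (Fintype.card (Fin W → α)) = 0 := by
      have : N = 0 := le_antisymm (not_lt.mp hN0) (by positivity)
      rw [hN] at this
      have := pow_eq_zero_iff (two_ne_zero) |>.mp this
      exact_mod_cast this
    rw [hN1] at hlarge
    obtain ⟨y, hy⟩ := Finset.card_pos.mp (lt_of_le_of_lt (Nat.zero_le _) hlarge)
    have : Nonempty (Fin W → α) := by
      exact ⟨fun j => y ⟨n + j, by have := j.2; omega⟩⟩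
    have := Fintype.card_pos_iff.mpr this
    omega
  have hlarge' : 2 * N < ((S0 μ ξ T F n z v).card : ℝ) := by
    rw [hN]; exact_mod_cast hlarge
  have hv0 := mass_nonneg (μ := μ) (ξ := ξ) (T := T) n v
  have h1 : ((S0 μ ξ T F n z v).card : ℝ) * (mass μ ξ T n v / N)
      ≤ ∑ y ∈ S0 μ ξ T F n z v, mass μ ξ T (n + W) y := by
    rw [← nsmul_eq_mul]
    apply Finset.card_nsmul_le_sum
    intro y hy
    rw [div_le_iff₀ hNpos]
    have := hcomp y hy
    linarith
  have h2 : 2 * mass μ ξ T n v ≤ ((S0 μ ξ T F n z v).card : ℝ) * (mass μ ξ T n v / N) := by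
    have h3 : 2 * mass μ ξ T n v = 2 * N * (mass μ ξ T n v / N) := by field_simp
    rw [h3]
    exact mul_le_mul_of_nonneg_right hlarge'.le (div_nonneg hv0 hNpos.le)
  linarith

/-- Bound on the failure probability of the prediction sets. -/
lemma tau_bound (hT : MeasurePreserving T μ μ)
    (hmix : ∀ A B, MeasurableSet A → MeasurableSet B →
      Tendsto (fun n : ℕ => μ (A ∩ T^[n] ⁻¹' B)) atTop (𝓝 (μ A * μ B)))
    (hξ : Measurable ξ) {R W : ℕ} (hnd : NearDet μ ξ T W)
    (F : (Fin R → α) → (Fin W → α) → α) (n : ℕ) (p₁ p₂ p₃ : ℕ) {ε δ δ' : ℝ} (hδ : 0 ≤ δ)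
    (herr : μ.real (Err ξ T F p₁ p₂ p₃) ≤ ε)
    (hδ' : (Fintype.card (Fin (n + R) → α) : ℝ) * δ' ≤ δ)
    (h1 : ∀ (S : Set (Fin (n + R) → α)) (v : Fin n → α),
      |μ.real (T^[p₁] ⁻¹' (win ξ T (n + R) ⁻¹' S) ∩ T^[p₃] ⁻¹' (win ξ T n ⁻¹' {v}))
        - μ.real (win ξ T (n + R) ⁻¹' S) * μ.real (win ξ T n ⁻¹' {v})| < δ)
    (h2 : ∀ (z : Fin (n + R) → α) (S' : Set (Fin (n + W) → α)),
      |μ.real (T^[p₁] ⁻¹' (win ξ T (n + R) ⁻¹' {z}) ∩ T^[p₂] ⁻¹' (win ξ T (n + W) ⁻¹' S'))
        - μ.real (win ξ T (n + R) ⁻¹' {z}) * μ.real (win ξ T (n + W) ⁻¹' S')| < δ') :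
    μ.real {ω | win ξ T (n + W) (T^[p₂] ω)
        ∉ Spred μ ξ T F n (2 * (Fintype.card (Fin W → α)) ^ 2)
            (win ξ T (n + R) (T^[p₁] ω)) (win ξ T n (T^[p₃] ω))}
      ≤ n * ε + (Fintype.card (Fin n → α) : ℝ) * (3 * δ + n * ε) := by
  classical
  have hTm := hT.measurable
  have hWm := measurable_win (T := T) hξ hTm
  have hC : ∀ K (S : Set (Fin K → α)), MeasurableSet (win ξ T K ⁻¹' S) :=
    fun K S => hWm K (measurableSet_finite S)
  set C := 2 * (Fintype.card (Fin W → α)) ^ 2 with hCdef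
  set Bad := ⋃ l : Fin n, T^[l] ⁻¹' Err ξ T F p₁ p₂ p₃ with hBad
  have hBadle : μ.real Bad ≤ n * ε := by
    calc μ.real Bad ≤ n * μ.real (Err ξ T F p₁ p₂ p₃) := real_bad_le hT hξ F p₁ p₂ p₃ n
      _ ≤ n * ε := mul_le_mul_of_nonneg_left herr (by positivity)
  have hgood : ∀ ω, ω ∉ Bad → win ξ T n (T^[p₃] ω)
      = Fw F n (win ξ T (n + R) (T^[p₁] ω)) (win ξ T (n + W) (T^[p₂] ω)) := by
    intro ω hω
    apply block_of_good
    intro l hl
    exact hω (Set.mem_iUnion.mpr ⟨l, hl⟩)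
  -- the null event
  set Zero : Finset (Fin (n + W) → α) := Finset.univ.filter (fun y => mass μ ξ T (n + W) y = 0)
    with hZero
  set Null := T^[p₂] ⁻¹' (win ξ T (n + W) ⁻¹' (Zero : Set (Fin (n + W) → α))) with hNull
  have hNull0 : μ.real Null = 0 := by
    rw [hNull, real_preimage_iterate hT p₂ (hC _ _), real_cyl_finset hTm hξ]
    apply Finset.sum_eq_zero
    intro y hy
    exact (Finset.mem_filter.mp hy).2
  -- the large fibre events
  set B : (Fin n → α) → Finset (Fin (n + R) → α) := fun v =>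
    Finset.univ.filter (fun z => C < (S0 μ ξ T F n z v).card) with hB
  set P : (Fin n → α) → Set Ω := fun v =>
    T^[p₁] ⁻¹' (win ξ T (n + R) ⁻¹' (B v : Set (Fin (n + R) → α)))
      ∩ T^[p₃] ⁻¹' (win ξ T n ⁻¹' {v}) with hP
  have hsub : {ω | win ξ T (n + W) (T^[p₂] ω)
        ∉ Spred μ ξ T F n C (win ξ T (n + R) (T^[p₁] ω)) (win ξ T n (T^[p₃] ω))}
      ⊆ Bad ∪ (Null ∪ ⋃ v, P v) := by
    intro ω hω
    by_cases hb : ω ∈ Bad
    · exact Or.inl hb
    right
    by_cases hn : ω ∈ Null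
    · exact Or.inl hn
    right
    refine Set.mem_iUnion.mpr ⟨win ξ T n (T^[p₃] ω), ?_⟩
    refine ⟨?_, rfl⟩
    simp only [hB, Set.mem_preimage, Finset.coe_filter, Finset.mem_univ, true_and,
      Set.mem_ofPred_eq]
    by_contra hnot
    push Not at hnot
    apply hω
    have hspred : Spred μ ξ T F n C (win ξ T (n + R) (T^[p₁] ω)) (win ξ T n (T^[p₃] ω))
        = S0 μ ξ T F n (win ξ T (n + R) (T^[p₁] ω)) (win ξ T n (T^[p₃] ω)) := by
      unfold Spred; rw [if_pos hnot]
    rw [hspred]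
    refine Finset.mem_filter.mpr ⟨Finset.mem_univ _, (hgood ω hb).symm, ?_⟩
    rcases (mass_nonneg (μ := μ) (ξ := ξ) (T := T) (n + W) (win ξ T (n + W) (T^[p₂] ω))).eq_or_lt
      with h0 | hpos
    · exfalso
      apply hn
      simp only [hNull, Set.mem_preimage, Finset.mem_coe, hZero, Finset.mem_filter, Finset.mem_univ,
        true_and]
      exact h0.symm
    · exact hpos
  -- estimate for a fixed v
  have hPv : ∀ v, μ.real (P v) ≤ 3 * δ + n * ε := by
    intro v
    set x := mass μ ξ T n v with hx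
    set b := μ.real (win ξ T (n + R) ⁻¹' (B v : Set (Fin (n + R) → α))) with hb
    have hx0 : 0 ≤ x := mass_nonneg _ _
    have hb0 : 0 ≤ b := measureReal_nonneg
    have h1v := h1 (B v : Set (Fin (n + R) → α)) v
    rw [abs_lt] at h1v
    have hZv : Measurable (fun ω => win ξ T (n + R) (T^[p₁] ω)) :=
      (hWm _).comp (hTm.iterate p₁)
    -- the event E
    set E : Set Ω := {ω | win ξ T (n + R) (T^[p₁] ω) ∈ B v ∧
      win ξ T (n + W) (T^[p₂] ω) ∈ S0 μ ξ T F n (win ξ T (n + R) (T^[p₁] ω)) v} with hE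
    have hEsub : E ⊆ P v ∪ Bad := by
      rintro ω ⟨hω1, hω2⟩
      by_cases hb' : ω ∈ Bad
      · exact Or.inr hb'
      · left
        refine ⟨hω1, ?_⟩
        have h3 := hgood ω hb'
        have h4 := (Finset.mem_filter.mp hω2).2.1
        simp only [Set.mem_preimage, Set.mem_singleton_iff]
        rw [h3, h4]
    have hEupper : μ.real E ≤ μ.real (P v) + n * ε := by
      calc μ.real E ≤ μ.real (P v ∪ Bad) := measureReal_mono hEsub
        _ ≤ μ.real (P v) + μ.real Bad := measureReal_union_le _ _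
        _ ≤ _ := by linarith
    -- lower bound for E
    have hEmeas : MeasurableSet E := by
      have hYv : Measurable (fun ω => win ξ T (n + W) (T^[p₂] ω)) :=
        (hWm _).comp (hTm.iterate p₂)
      have hY : Measurable (fun ω => (win ξ T (n + R) (T^[p₁] ω), win ξ T (n + W) (T^[p₂] ω))) :=
        hZv.prodMk hYv
      exact hY (measurableSet_finite {q | q.1 ∈ B v ∧ q.2 ∈ S0 μ ξ T F n q.1 v})
    have hEsum : μ.real E = ∑ z ∈ B v, μ.real (T^[p₁] ⁻¹' (win ξ T (n + R) ⁻¹' {z})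
        ∩ T^[p₂] ⁻¹' (win ξ T (n + W) ⁻¹' (S0 μ ξ T F n z v : Set (Fin (n + W) → α)))) := by
      rw [← sum_fibers (μ := μ) hZv hEmeas]
      have hzero : ∀ z ∈ Finset.univ, z ∉ B v →
          μ.real (E ∩ (fun ω => win ξ T (n + R) (T^[p₁] ω)) ⁻¹' {z}) = 0 := by
        intro z _ hz
        have : E ∩ (fun ω => win ξ T (n + R) (T^[p₁] ω)) ⁻¹' {z} = ∅ := by
          ext ω
          simp only [Set.mem_inter_iff, Set.mem_preimage, Set.mem_singleton_iff,
            Set.mem_empty_iff_false, iff_false, not_and]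
          rintro ⟨h3, _⟩ h5
          rw [h5] at h3
          exact hz h3
        rw [this]; simp
      rw [← Finset.sum_subset (Finset.subset_univ (B v)) hzero]
      apply Finset.sum_congr rfl
      intro z hz
      congr 1
      ext ω
      simp only [hE, Set.mem_inter_iff, Set.mem_ofPred_eq, Set.mem_preimage, Set.mem_singleton_iff,
        Finset.mem_coe]
      constructor
      · rintro ⟨⟨_, h4⟩, h5⟩
        rw [h5] at h4
        exact ⟨h5, h4⟩
      · rintro ⟨h4, h5⟩
        rw [h4]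
        exact ⟨⟨hz, h5⟩, rfl⟩
    have hEterm : ∀ z ∈ B v, 2 * x * mass μ ξ T (n + R) z - δ'
        ≤ μ.real (T^[p₁] ⁻¹' (win ξ T (n + R) ⁻¹' {z})
        ∩ T^[p₂] ⁻¹' (win ξ T (n + W) ⁻¹' (S0 μ ξ T F n z v : Set (Fin (n + W) → α)))) := by
      intro z hz
      have hlarge : C < (S0 μ ξ T F n z v).card := (Finset.mem_filter.mp hz).2
      have h3 := sum_S0_ge hT hmix hξ hnd F n z v hlarge
      have h4 := h2 z (S0 μ ξ T F n z v : Set (Fin (n + W) → α))
      rw [abs_lt] at h4
      rw [real_cyl_finset hTm hξ] at h4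
      have hz0 := mass_nonneg (μ := μ) (ξ := ξ) (T := T) (n + R) z
      have h5 : 2 * x * mass μ ξ T (n + R) z ≤ mass μ ξ T (n + R) z
          * ∑ y ∈ S0 μ ξ T F n z v, mass μ ξ T (n + W) y := by
        have := mul_le_mul_of_nonneg_left h3 hz0
        linarith
      have h6 : mass μ ξ T (n + R) z = μ.real (win ξ T (n + R) ⁻¹' {z}) := rfl
      rw [← h6] at h4
      linarith [h4.1]
    have hb_eq : b = ∑ z ∈ B v, mass μ ξ T (n + R) z := real_cyl_finset hTm hξ _ _
    have hElow : 2 * x * b - δ ≤ μ.real E := by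
      rw [hEsum, hb_eq, Finset.mul_sum]
      have hcard : ((B v).card : ℝ) * δ' ≤ δ := by
        have h7 : ((B v).card : ℝ) ≤ (Fintype.card (Fin (n + R) → α) : ℝ) := by
          exact_mod_cast Finset.card_le_univ _
        by_cases hd : 0 ≤ δ'
        · exact le_trans (mul_le_mul_of_nonneg_right h7 hd) hδ'
        · push Not at hd
          have : ((B v).card : ℝ) * δ' ≤ 0 :=
            mul_nonpos_of_nonneg_of_nonpos (by positivity) hd.le
          linarith
      have hsum' : ∑ z ∈ B v, (2 * x * mass μ ξ T (n + R) z - δ')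
          ≤ ∑ z ∈ B v, μ.real (T^[p₁] ⁻¹' (win ξ T (n + R) ⁻¹' {z})
            ∩ T^[p₂] ⁻¹' (win ξ T (n + W) ⁻¹' (S0 μ ξ T F n z v : Set (Fin (n + W) → α)))) :=
        Finset.sum_le_sum hEterm
      rw [Finset.sum_sub_distrib, Finset.sum_const, nsmul_eq_mul] at hsum'
      linarith
    -- conclude
    have hxb : x * b ≤ 2 * δ + n * ε := by
      have := h1v.2
      have hxdef : μ.real (win ξ T n ⁻¹' {v}) = x := rfl
      rw [hxdef] at this
      nlinarith
    have := h1v.2
    have hxdef : μ.real (win ξ T n ⁻¹' {v}) = x := rfl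
    rw [hxdef] at this
    have h8 : μ.real (P v) < b * x + δ := by linarith
    nlinarith
  -- sum up
  have hUnion : μ.real (⋃ v, P v) ≤ (Fintype.card (Fin n → α) : ℝ) * (3 * δ + n * ε) := by
    calc μ.real (⋃ v, P v) ≤ ∑ v, μ.real (P v) := measureReal_iUnion_fintype_le _
      _ ≤ ∑ _v : Fin n → α, (3 * δ + n * ε) := Finset.sum_le_sum (fun v _ => hPv v)
      _ = _ := by rw [Finset.sum_const, nsmul_eq_mul, Finset.card_univ]
  calc _ ≤ μ.real (Bad ∪ (Null ∪ ⋃ v, P v)) := measureReal_mono hsub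
    _ ≤ μ.real Bad + μ.real (Null ∪ ⋃ v, P v) := measureReal_union_le _ _
    _ ≤ μ.real Bad + (μ.real Null + μ.real (⋃ v, P v)) := by
        gcongr; exact measureReal_union_le _ _
    _ ≤ _ := by rw [hNull0]; linarith

end main

end Vale.Agent.Lib.P102
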