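import Mathlib
import Vale.Agent.Lib.P102.Middle

/-! The main theorem in all relative positions of the three times. -/

namespace Vale.Agent.Lib.P102

open MeasureTheory Filter Topology

variable {Ω : Type*} [MeasurableSpace Ω] {α : Type*}

section main

variable [Fintype α] [MeasurableSpace α] [MeasurableSingletonClass α]
variable {μ : Measure Ω} [IsProbabilityMeasure μ] {T : Ω → Ω} {ξ : Ω → α}

/-- failure event of the prediction sets. -/
noncomputable def Fail (μ : Measure Ω) (ξ : Ω → α) (T : Ω → Ω) {R W : ℕ}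
    (F : (Fin R → α) → (Fin W → α) → α) (n C p₁ p₂ p₃ : ℕ) : Set Ω :=
  {ω | win ξ T (n + W) (T^[p₂] ω)
        ∉ Spred μ ξ T F n C (win ξ T (n + R) (T^[p₁] ω)) (win ξ T n (T^[p₃] ω))}

lemma measurableSet_Fail (hTm : Measurable T) (hξ : Measurable ξ) {R W : ℕ}
    (F : (Fin R → α) → (Fin W → α) → α) (n C p₁ p₂ p₃ : ℕ) :
    MeasurableSet (Fail μ ξ T F n C p₁ p₂ p₃) := by
  have hWm := measurable_win (T := T) hξ hTm
  have hY : Measurable (fun ω => (win ξ T (n + W) (T^[p₂] ω), win ξ T (n + R) (T^[p₁] ω),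
      win ξ T n (T^[p₃] ω))) :=
    ((hWm _).comp (hTm.iterate _)).prodMk
      (((hWm _).comp (hTm.iterate _)).prodMk ((hWm _).comp (hTm.iterate _)))
  have hset : Fail μ ξ T F n C p₁ p₂ p₃
      = (fun ω => (win ξ T (n + W) (T^[p₂] ω), win ξ T (n + R) (T^[p₁] ω),
          win ξ T n (T^[p₃] ω))) ⁻¹'
        {q : (Fin (n + W) → α) × (Fin (n + R) → α) × (Fin n → α) |
          q.1 ∉ Spred μ ξ T F n C q.2.1 q.2.2} := by
    ext ω
    simp only [Fail, Set.mem_ofPred_eq, Set.mem_preimage]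
  rw [hset]
  exact hY (measurableSet_finite _)

omit [Fintype α] [MeasurableSpace α] [MeasurableSingletonClass α] [IsProbabilityMeasure μ] in
lemma win_shift (ξ : Ω → α) (T : Ω → Ω) (K p l : ℕ) (ω : Ω) :
    win ξ T K (T^[p] (T^[l] ω)) = fun i : Fin K => ξ (T^[p + l + i] ω) := by
  funext i
  simp only [win]
  rw [iter3']

/-- Chain step with a block on the right. -/
lemma chain_mid_forward (hT : MeasurePreserving T μ μ) (hξ : Measurable ξ) {R W : ℕ}
    (F : (Fin R → α) → (Fin W → α) → α) (n C : ℕ) (hC : 1 ≤ C) (p₁ p₂ p₃ : ℕ)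
    (h₁ : p₁ + (n + R) ≤ p₂) (h₃ : p₃ + n ≤ p₂) (N : ℕ) (hN : p₂ ≤ N) :
    ent μ ξ T (N + (n + W)) ≤ ent μ ξ T N + Real.log C
      + (2 * (Fintype.card (Fin (n + W) → α) : ℝ) + 1)
        * Real.sqrt (μ.real (Fail μ ξ T F n C p₁ p₂ p₃)) := by
  classical
  obtain ⟨l, rfl⟩ : ∃ l, N = p₂ + l := ⟨N - p₂, by omega⟩
  have hmeas : MeasurableSet (Fail μ ξ T F n C p₁ p₂ p₃) :=
    measurableSet_Fail hT.measurable hξ F n C p₁ p₂ p₃
  set S : (Fin (p₂ + l) → α) → Finset (Fin (n + W) → α) := fun u =>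
    Spred μ ξ T F n C (fun i => u ⟨p₁ + l + i, by have := i.2; omega⟩)
      (fun i => u ⟨p₃ + l + i, by have := i.2; omega⟩) with hS
  have h := ent_forward (μ := μ) (ξ := ξ) (T := T) hT.measurable hξ (p₂ + l) (n + W) C hC S
    (fun u => Spred_card_le _ _ _ _ _)
  have hset : {ω | win ξ T (n + W) (T^[p₂ + l] ω) ∉ S (win ξ T (p₂ + l) ω)}
      = T^[l] ⁻¹' (Fail μ ξ T F n C p₁ p₂ p₃) := by
    ext ω
    have e0 : win ξ T (n + W) (T^[p₂ + l] ω) = win ξ T (n + W) (T^[p₂] (T^[l] ω)) := by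
      rw [Function.iterate_add_apply]
    have e1 : (fun i : Fin (n + R) => win ξ T (p₂ + l) ω ⟨p₁ + l + i, by have := i.2; omega⟩)
        = win ξ T (n + R) (T^[p₁] (T^[l] ω)) := by
      rw [win_shift]; rfl
    have e3 : (fun i : Fin n => win ξ T (p₂ + l) ω ⟨p₃ + l + i, by have := i.2; omega⟩)
        = win ξ T n (T^[p₃] (T^[l] ω)) := by
      rw [win_shift]; rfl
    simp only [Set.mem_ofPred_eq, Set.mem_preimage, Fail, hS]
    rw [e0, e1, e3]
  rw [hset, real_preimage_iterate hT l hmeas] at h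
  exact h

/-- Chain step with a block on the left. -/
lemma chain_mid_backward (hT : MeasurePreserving T μ μ) (hξ : Measurable ξ) {R W : ℕ}
    (F : (Fin R → α) → (Fin W → α) → α) (n C : ℕ) (hC : 1 ≤ C) (p₁ p₂ p₃ : ℕ)
    (h₁ : p₂ + (n + W) ≤ p₁) (h₃ : p₂ + (n + W) ≤ p₃) (N : ℕ) (hN₁ : p₁ + (n + R) ≤ N)
    (hN₃ : p₃ + n ≤ N) :
    ent μ ξ T (N + (n + W)) ≤ ent μ ξ T N + Real.log C
      + (2 * (Fintype.card (Fin (n + W) → α) : ℝ) + 1)
        * Real.sqrt (μ.real (Fail μ ξ T F n C p₁ p₂ p₃)) := by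
  classical
  have hTm := hT.measurable
  have hWm := measurable_win (T := T) hξ hTm
  obtain ⟨q₁, rfl⟩ : ∃ q₁, p₁ = q₁ + (n + W) + p₂ := ⟨p₁ - (n + W) - p₂, by omega⟩
  obtain ⟨q₃, rfl⟩ : ∃ q₃, p₃ = q₃ + (n + W) + p₂ := ⟨p₃ - (n + W) - p₂, by omega⟩
  have hmeas : MeasurableSet (Fail μ ξ T F n C (q₁ + (n + W)) 0 (q₃ + (n + W))) :=
    measurableSet_Fail hTm hξ F n C _ _ _
  have hshift : Fail μ ξ T F n C (q₁ + (n + W) + p₂) p₂ (q₃ + (n + W) + p₂)
      = T^[p₂] ⁻¹' (Fail μ ξ T F n C (q₁ + (n + W)) 0 (q₃ + (n + W))) := by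
    ext ω
    simp only [Fail, Set.mem_ofPred_eq, Set.mem_preimage, Function.iterate_add_apply,
      Function.iterate_zero, id]
  rw [hshift, real_preimage_iterate hT p₂ hmeas, Nat.add_comm N (n + W)]
  set S : (Fin N → α) → Finset (Fin (n + W) → α) := fun u =>
    Spred μ ξ T F n C (fun i => u ⟨q₁ + i, by have := i.2; omega⟩)
      (fun i => u ⟨q₃ + i, by have := i.2; omega⟩) with hS
  have h := ent_backward (μ := μ) (ξ := ξ) (T := T) hT hξ N (n + W) C hC S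
    (fun u => Spred_card_le _ _ _ _ _)
  have hset : {ω | win ξ T (n + W) ω ∉ S (win ξ T N (T^[n + W] ω))}
      = Fail μ ξ T F n C (q₁ + (n + W)) 0 (q₃ + (n + W)) := by
    ext ω
    simp only [Set.mem_ofPred_eq, Fail, hS]
    have e1 : (fun i : Fin (n + R) => win ξ T N (T^[n + W] ω) ⟨q₁ + i, by have := i.2; omega⟩)
        = win ξ T (n + R) (T^[q₁ + (n + W)] ω) := by
      funext i
      simp only [win]
      rw [← Function.iterate_add_apply, ← Function.iterate_add_apply]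
      congr 2; omega
    have e3 : (fun i : Fin n => win ξ T N (T^[n + W] ω) ⟨q₃ + i, by have := i.2; omega⟩)
        = win ξ T n (T^[q₃ + (n + W)] ω) := by
      funext i
      simp only [win]
      rw [← Function.iterate_add_apply, ← Function.iterate_add_apply]
      congr 2; omega
    rw [e1, e3]
    rfl
  rw [hset] at h
  exact h

/-- The main theorem. -/
theorem no_neardet (hT : MeasurePreserving T μ μ)
    (hmix : ∀ A B, MeasurableSet A → MeasurableSet B →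
      Tendsto (fun n : ℕ => μ (A ∩ T^[n] ⁻¹' B)) atTop (𝓝 (μ A * μ B)))
    (hξ : Measurable ξ) (hnc : ¬ ∃ c, ∀ᵐ ω ∂μ, ξ ω = c) (W : ℕ) :
    ∃ ε > 0, ∀ R : ℕ, ∃ G : ℕ, ∀ (p₁ p₂ p₃ : ℕ) (F : (Fin R → α) → (Fin W → α) → α),
      Far G p₁ p₂ → Far G p₁ p₃ → Far G p₂ p₃ → ε ≤ μ.real (Err ξ T F p₁ p₂ p₃) := by
  classical
  by_contra hcon
  push Not at hcon
  have hnd : NearDet μ ξ T W := by
    intro ε hε
    obtain ⟨R, hR⟩ := hcon ε hε
    refine ⟨R, fun G => ?_⟩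
    obtain ⟨p₁, p₂, p₃, F, h12, h13, h23, herr⟩ := hR G
    exact ⟨p₁, p₂, p₃, F, h12, h13, h23, herr⟩
  have hTm := hT.measurable
  have hWm := measurable_win (T := T) hξ hTm
  have hCm : ∀ K (S : Set (Fin K → α)), MeasurableSet (win ξ T K ⁻¹' S) :=
    fun K S => hWm K (measurableSet_finite S)
  have hlog2 : 0 < Real.log 2 := Real.log_pos (by norm_num)
  have hαne : Nonempty α := ⟨ξ (μ.nonempty_of_neZero.some)⟩
  have hcardpos : ∀ K, 0 < Fintype.card (Fin K → α) := fun K => Fintype.card_pos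
  have hW : (0:ℝ) < (W:ℝ) + 1 := by positivity
  -- outer case constant
  set c₁ : ℝ := 2 * (Fintype.card (Fin 1 → α) : ℝ) + 1 with hc₁
  have hc₁pos : 0 < c₁ := by positivity
  set κ : ℝ := Real.log 2 / (2 * c₁ * ((W:ℝ) + 1)) with hκ
  have hκpos : 0 < κ := by positivity
  -- middle case constants
  set C : ℕ := 2 * (Fintype.card (Fin W → α)) ^ 2 with hC
  have hC1 : 1 ≤ C := by
    have := hcardpos W
    have : 0 < (Fintype.card (Fin W → α)) ^ 2 := by positivity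
    omega
  have hlogC : 0 ≤ Real.log C := Real.log_nonneg (by exact_mod_cast hC1)
  obtain ⟨n, hn⟩ := exists_nat_gt (((Real.log C + 1) * ((W:ℝ) + 1)) / Real.log 2)
  rw [div_lt_iff₀ hlog2] at hn
  have hn1 : 1 ≤ n := by
    by_contra h0
    have : n = 0 := by omega
    subst this
    simp only [Nat.cast_zero, zero_mul] at hn
    have : 0 < (Real.log C + 1) * ((W:ℝ) + 1) := by positivity
    linarith
  set L := n + W with hL
  set Λ : ℝ := 2 * (Fintype.card (Fin L → α) : ℝ) + 1 with hΛ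
  have hΛpos : 0 < Λ := by positivity
  set A : ℝ := (Fintype.card (Fin n → α) : ℝ) with hA
  have hA0 : 0 ≤ A := by positivity
  set D : ℝ := (n:ℝ) + A * (3 + n) + 1 with hD
  have hDpos : 0 < D := by positivity
  set ε₂ : ℝ := (1 / Λ) ^ 2 / D with hε₂
  have hε₂pos : 0 < ε₂ := by positivity
  set ε : ℝ := min (κ ^ 2) ε₂ with hε
  have hεpos : 0 < ε := lt_min (by positivity) hε₂pos
  obtain ⟨R, hR⟩ := hcon ε hεpos
  -- mixing thresholds
  set Q : ℝ := (Fintype.card (Fin (n + R) → α) : ℝ) with hQ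
  have hQpos : 0 < Q := by
    rw [hQ]; exact_mod_cast hcardpos (n + R)
  obtain ⟨G₁, hG₁⟩ := pair_mix_family hT hmix
    (fun i : Set (Fin (n + R) → α) × (Fin n → α) => win ξ T (n + R) ⁻¹' i.1)
    (fun i => win ξ T n ⁻¹' {i.2}) (fun i => hCm _ _) (fun i => hCm _ _) hεpos
  obtain ⟨G₂, hG₂⟩ := pair_mix_family hT hmix
    (fun i : (Fin (n + R) → α) × Set (Fin (n + W) → α) => win ξ T (n + R) ⁻¹' {i.1})
    (fun i => win ξ T (n + W) ⁻¹' i.2) (fun i => hCm _ _) (fun i => hCm _ _)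
    (δ := ε / Q) (by positivity)
  set G := max (max G₁ G₂) (n + R + W + 1) with hG
  have hG1 : G₁ ≤ G := le_trans (le_max_left _ _) (le_max_left _ _)
  have hG2 : G₂ ≤ G := le_trans (le_max_right _ _) (le_max_left _ _)
  have hG3 : n + R + W + 1 ≤ G := le_max_right _ _
  obtain ⟨p₁, p₂, p₃, F, h12, h13, h23, herr⟩ := hR G
  have hcases : (p₁ + G ≤ p₃ ∧ p₂ + G ≤ p₃) ∨ (p₃ + G ≤ p₁ ∧ p₃ + G ≤ p₂)
      ∨ (p₁ + G ≤ p₃ ∧ p₃ + G ≤ p₂) ∨ (p₂ + G ≤ p₃ ∧ p₃ + G ≤ p₁) := by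
    unfold Far at *; omega
  have hεκ : ε ≤ κ ^ 2 := min_le_left _ _
  have hεε₂ : ε ≤ ε₂ := min_le_right _ _
  -- outer bound
  have houter : (c₁ * Real.sqrt (μ.real (Err ξ T F p₁ p₂ p₃))) * ((W:ℝ) + 1)
      < ((1:ℕ):ℝ) * Real.log 2 := by
    have hsq : Real.sqrt (μ.real (Err ξ T F p₁ p₂ p₃)) < κ := by
      rw [Real.sqrt_lt' hκpos]; linarith
    have h1 : c₁ * Real.sqrt (μ.real (Err ξ T F p₁ p₂ p₃)) < c₁ * κ :=
      mul_lt_mul_of_pos_left hsq hc₁pos
    have h2 : c₁ * κ * ((W:ℝ) + 1) = Real.log 2 / 2 := by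
      rw [hκ]; field_simp
    have h3 := mul_lt_mul_of_pos_right h1 hW
    rw [h2] at h3
    simp only [Nat.cast_one, one_mul]
    linarith
  -- middle bound
  have hmid : (Real.log C + Λ * Real.sqrt (μ.real (Fail μ ξ T F n C p₁ p₂ p₃))) * ((W:ℝ) + 1)
      < (L:ℝ) * Real.log 2 := by
    have htau : μ.real (Fail μ ξ T F n C p₁ p₂ p₃)
        ≤ n * ε + (Fintype.card (Fin n → α) : ℝ) * (3 * ε + n * ε) := by
      refine tau_bound hT hmix hξ hnd F n p₁ p₂ p₃ (δ' := ε / Q) hεpos.le herr.le ?_ ?_ ?_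
      · rw [← hQ]; field_simp; exact le_refl _
      · intro S v
        exact hG₁ (S, v) p₁ p₃ (h13.mono hG1)
      · intro z S'
        exact hG₂ (z, S') p₁ p₂ (h12.mono hG2)
    have htau2 : μ.real (Fail μ ξ T F n C p₁ p₂ p₃) ≤ (1 / Λ) ^ 2 := by
      have h5 : n * ε + (Fintype.card (Fin n → α) : ℝ) * (3 * ε + n * ε) ≤ D * ε := by
        rw [hD, ← hA]; nlinarith
      have h6 : D * ε ≤ D * ε₂ := mul_le_mul_of_nonneg_left hεε₂ hDpos.le
      have h7 : D * ε₂ = (1 / Λ) ^ 2 := by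
        rw [hε₂]; field_simp
      linarith
    have hsqrt : Real.sqrt (μ.real (Fail μ ξ T F n C p₁ p₂ p₃)) ≤ 1 / Λ := by
      apply Real.sqrt_le_iff.mpr
      exact ⟨by positivity, htau2⟩
    have h8 : Λ * Real.sqrt (μ.real (Fail μ ξ T F n C p₁ p₂ p₃)) ≤ 1 := by
      calc _ ≤ Λ * (1 / Λ) := mul_le_mul_of_nonneg_left hsqrt hΛpos.le
        _ = 1 := by field_simp
    have h9 : (Real.log C + Λ * Real.sqrt (μ.real (Fail μ ξ T F n C p₁ p₂ p₃))) * ((W:ℝ) + 1)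
        ≤ (Real.log C + 1) * ((W:ℝ) + 1) :=
      mul_le_mul_of_nonneg_right (by linarith) hW.le
    have h10 : (n:ℝ) * Real.log 2 ≤ (L:ℝ) * Real.log 2 := by
      apply mul_le_mul_of_nonneg_right _ hlog2.le
      rw [hL]; push_cast; linarith [(Nat.cast_nonneg W : (0:ℝ) ≤ (W:ℝ))]
    linarith
  rcases hcases with ⟨h1, h2⟩ | ⟨h1, h2⟩ | ⟨h1, h2⟩ | ⟨h1, h2⟩
  · refine false_of_chain hT hmix hξ hnc hnd p₃ 1 le_rfl _ ?_ houter
    intro N hN
    exact chain_last hT hξ F p₁ p₂ p₃ (by omega) (by omega) N hN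
  · refine false_of_chain hT hmix hξ hnc hnd (p₁ + p₂ + R + W) 1 le_rfl _ ?_ houter
    intro N hN
    exact chain_first hT hξ F p₁ p₂ p₃ (by omega) (by omega) N (by omega) (by omega)
  · refine false_of_chain hT hmix hξ hnc hnd p₂ L (by omega) _ ?_ hmid
    intro N hN
    have := chain_mid_forward hT hξ F n C hC1 p₁ p₂ p₃ (by omega) (by omega) N hN
    rw [← hL, ← hΛ] at this
    linarith
  · refine false_of_chain hT hmix hξ hnc hnd (p₁ + p₃ + n + R) L (by omega) _ ?_ hmid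
    intro N hN
    have := chain_mid_backward hT hξ F n C hC1 p₁ p₂ p₃ (by omega) (by omega) N (by omega) (by omega)
    rw [← hL, ← hΛ] at this
    linarith

end main

end Vale.Agent.Lib.P102
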